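import Vale.Agent.P207.H442.Ten2

/-!
# P207 / H442: integration by parts in the calculus of the frame bundle
-/

set_option linter.unusedSectionVars false

noncomputable section

namespace Vale.Agent.P207.H442

open Finset

namespace FrCalc

variable {n : ℕ} {A : Type*} [CommRing A] [Algebra ℝ A] {C : FrCalc n A}

variable (C) in
/-- an invariant integral -/
structure IsInt (I : A →ₗ[ℝ] ℝ) : Prop where
  hor : ∀ i f, I (C.H i f) = 0
  ver : ∀ a b f, I (C.V a b f) = 0

variable {I : A →ₗ[ℝ] ℝ}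

theorem IsInt.H_mul (hI : C.IsInt I) (i : Fin n) (f h : A) :
    I (C.H i f * h) = -I (f * C.H i h) := by
  have h1 := hI.hor i (f * h)
  rw [Derivation.leibniz, map_add, smul_eq_mul, smul_eq_mul] at h1
  rw [eq_neg_iff_add_eq_zero, ← h1, add_comm, mul_comm h]

theorem IsInt.mul_H (hI : C.IsInt I) (i : Fin n) (f h : A) :
    I (f * C.H i h) = -I (C.H i f * h) := by
  rw [hI.H_mul, neg_neg]

theorem IsInt.V_mul (hI : C.IsInt I) (a b : Fin n) (f h : A) :
    I (C.V a b f * h) = -I (f * C.V a b h) := by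
  have h1 := hI.ver a b (f * h)
  rw [Derivation.leibniz, map_add, smul_eq_mul, smul_eq_mul] at h1
  rw [eq_neg_iff_add_eq_zero, ← h1, add_comm, mul_comm h]

theorem IsInt.mul_V (hI : C.IsInt I) (a b : Fin n) (f h : A) :
    I (f * C.V a b h) = -I (C.V a b f * h) := by
  rw [hI.V_mul, neg_neg]

/-- Green's formula -/
theorem IsInt.lap (hI : C.IsInt I) (f h : A) :
    I (f * C.lap h) = -∑ i, I (C.H i f * C.H i h) := by
  unfold FrCalc.lap
  rw [Finset.mul_sum, map_sum, ← Finset.sum_neg_distrib]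
  exact Finset.sum_congr rfl fun i _ => hI.mul_H i f (C.H i h)

theorem IsInt.lap_symm (hI : C.IsInt I) (f h : A) : I (f * C.lap h) = I (C.lap f * h) := by
  rw [hI.lap, mul_comm (C.lap f), hI.lap]
  congr 1
  exact Finset.sum_congr rfl fun i _ => by rw [mul_comm]

/-- `∑ V_kl R_ijkl = 0` -/
theorem sum_V_R' (i j : Fin n) : ∑ k, ∑ l, C.V k l (C.R i j k l) = 0 := by
  rw [← sum_V_R (C := C) i j]
  exact Finset.sum_congr rfl fun k _ => Finset.sum_congr rfl fun l _ => by rw [C.R_pair]

theorem IsInt.curv (hI : C.IsInt I) (f h : A) :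
    I (f * C.curv h) = -∑ i, ∑ j, ∑ k, ∑ l, I (C.R i j k l * (C.V i j f * C.V k l h)) := by
  unfold FrCalc.curv
  have e1 : ∀ i j k l, I (f * (C.R i j k l * C.V i j (C.V k l h))) =
      -I (C.R i j k l * (C.V i j f * C.V k l h)) - I (f * C.V i j (C.R i j k l) * C.V k l h) := by
    intro i j k l
    rw [← mul_assoc, hI.mul_V i j (f * C.R i j k l) (C.V k l h), Derivation.leibniz, smul_eq_mul,
      smul_eq_mul, add_mul, map_add]
    have e2 : C.R i j k l * C.V i j f * C.V k l h = C.R i j k l * (C.V i j f * C.V k l h) := by ring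
    rw [e2]
    ring
  simp only [Finset.mul_sum, map_sum, e1, Finset.sum_sub_distrib, Finset.sum_neg_distrib]
  have e3 : ∑ i, ∑ j, ∑ k, ∑ l, I (f * C.V i j (C.R i j k l) * C.V k l h) = 0 := by
    have e4 : ∑ i, ∑ j, ∑ k, ∑ l, f * C.V i j (C.R i j k l) * C.V k l h = 0 := by
      calc ∑ i, ∑ j, ∑ k, ∑ l, f * C.V i j (C.R i j k l) * C.V k l h
          = ∑ i, ∑ k, ∑ j, ∑ l, f * C.V i j (C.R i j k l) * C.V k l h :=
            Finset.sum_congr rfl fun i _ => Finset.sum_comm
        _ = ∑ k, ∑ i, ∑ j, ∑ l, f * C.V i j (C.R i j k l) * C.V k l h := Finset.sum_comm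
        _ = ∑ k, ∑ i, ∑ l, ∑ j, f * C.V i j (C.R i j k l) * C.V k l h :=
            Finset.sum_congr rfl fun k _ => Finset.sum_congr rfl fun i _ => Finset.sum_comm
        _ = ∑ k, ∑ l, f * (∑ i, ∑ j, C.V i j (C.R i j k l)) * C.V k l h := by
            simp only [Finset.mul_sum, Finset.sum_mul]
            exact Finset.sum_congr rfl fun k _ => Finset.sum_comm
        _ = 0 := Finset.sum_eq_zero fun k _ => Finset.sum_eq_zero fun l _ => by
            rw [sum_V_R, mul_zero, zero_mul]
    have e5 := congrArg I e4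
    simpa only [map_sum, map_zero] using e5
  rw [e3, sub_zero]

theorem IsInt.curv_symm (hI : C.IsInt I) (f h : A) : I (f * C.curv h) = I (C.curv f * h) := by
  rw [hI.curv, mul_comm (C.curv f), hI.curv]
  congr 1
  calc ∑ i, ∑ j, ∑ k, ∑ l, I (C.R i j k l * (C.V i j f * C.V k l h))
      = ∑ i, ∑ k, ∑ j, ∑ l, I (C.R i j k l * (C.V i j f * C.V k l h)) :=
        Finset.sum_congr rfl fun i _ => Finset.sum_comm
    _ = ∑ k, ∑ i, ∑ j, ∑ l, I (C.R i j k l * (C.V i j f * C.V k l h)) := Finset.sum_comm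
    _ = ∑ k, ∑ i, ∑ l, ∑ j, I (C.R i j k l * (C.V i j f * C.V k l h)) :=
        Finset.sum_congr rfl fun k _ => Finset.sum_congr rfl fun i _ => Finset.sum_comm
    _ = ∑ k, ∑ l, ∑ i, ∑ j, I (C.R i j k l * (C.V i j f * C.V k l h)) :=
        Finset.sum_congr rfl fun k _ => Finset.sum_comm
    _ = _ := by
        refine Finset.sum_congr rfl fun k _ => Finset.sum_congr rfl fun l _ =>
          Finset.sum_congr rfl fun i _ => Finset.sum_congr rfl fun j _ => ?_
        rw [C.R_pair, mul_comm (C.V i j f)]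

/-- **the Casimir operator is symmetric** -/
theorem IsInt.cas_symm (hI : C.IsInt I) (f h : A) : I (f * C.cas h) = I (C.cas f * h) := by
  unfold FrCalc.cas
  rw [mul_sub, sub_mul, map_sub, map_sub, hI.lap_symm, mul_smul_comm, smul_mul_assoc, map_smul,
    map_smul, hI.curv_symm]

/-- eigenvectors of the Casimir operator for different eigenvalues are orthogonal -/
theorem IsInt.orth (hI : C.IsInt I) {f h : A} {lam mu : ℝ} (hf : C.cas f = lam • f)
    (hh : C.cas h = mu • h) (hne : lam ≠ mu) : I (f * h) = 0 := by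
  have h1 := hI.cas_symm f h
  rw [hf, hh, mul_smul_comm, smul_mul_assoc, map_smul, map_smul, smul_eq_mul, smul_eq_mul] at h1
  have h2 : (mu - lam) * I (f * h) = 0 := by
    rw [sub_mul, h1, sub_self]
  rcases mul_eq_zero.1 h2 with h3 | h3
  · exact absurd (sub_eq_zero.1 h3).symm hne
  · exact h3

end FrCalc

end Vale.Agent.P207.H442
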