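import Vale.Agent.P207.H442.Ten

/-!
# P207 / H442: tensors of small rank, Ricci identities, Lichnerowicz formula, integration
-/

set_option linter.unusedSectionVars false

noncomputable section

namespace Vale.Agent.P207.H442

open Finset

namespace FrCalc

variable {n : ℕ} {A : Type*} [CommRing A] [Algebra ℝ A] {C : FrCalc n A}

variable (C) in
/-- functions on the base -/
def T0 (f : A) : Prop := ∀ a b, C.V a b f = 0

variable (C) in
/-- vector fields -/
def T1 (w : Fin n → A) : Prop := ∀ a b i, C.V a b (w i) = ac a b w i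

variable (C) in
/-- tensors of rank two -/
def T2 (k : Fin n → Fin n → A) : Prop := ∀ a b i j, C.V a b (k i j) =
  ac a b (fun i => k i j) i + ac a b (fun j => k i j) j

variable (C) in
/-- tensors of rank three -/
def T3 (T : Fin n → Fin n → Fin n → A) : Prop := ∀ a b i j k, C.V a b (T i j k) =
  ac a b (fun i => T i j k) i + ac a b (fun j => T i j k) j + ac a b (fun k => T i j k) k

variable (C) in
/-- tensors of rank four -/
def T4 (T : Fin n → Fin n → Fin n → Fin n → A) : Prop := ∀ a b i j k l, C.V a b (T i j k l) =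
  ac a b (fun i => T i j k l) i + ac a b (fun j => T i j k l) j + ac a b (fun k => T i j k l) k
    + ac a b (fun l => T i j k l) l

theorem T4_R : C.T4 C.R := C.VR

/-! ### covariant derivatives -/

theorem T0.nabla {f : A} (h : C.T0 f) : C.T1 (fun i => C.H i f) := by
  intro a b i
  rw [VH, h a b, map_zero, zero_add]

theorem T1.nabla {w : Fin n → A} (h : C.T1 w) : C.T2 (fun i j => C.H i (w j)) := by
  intro a b i j
  rw [VH, h a b, ac_map, add_comm]

theorem T2.nabla {k : Fin n → Fin n → A} (h : C.T2 k) : C.T3 (fun i j l => C.H i (k j l)) := by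
  intro a b i j l
  rw [VH, h a b, map_add, ac_map, ac_map]
  ring

theorem T3.nabla {T : Fin n → Fin n → Fin n → A} (h : C.T3 T) :
    C.T4 (fun m i j k => C.H m (T i j k)) := by
  intro a b m i j k
  rw [VH, h a b, map_add, map_add, ac_map, ac_map, ac_map]
  ring

/-! ### algebra -/

theorem T0.add {f h : A} (hf : C.T0 f) (hh : C.T0 h) : C.T0 (f + h) := fun a b => by
  rw [map_add, hf, hh, add_zero]

theorem T0.smul {f : A} (c : ℝ) (hf : C.T0 f) : C.T0 (c • f) := fun a b => by
  rw [Derivation.map_smul, hf, smul_zero]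

theorem T1.add {w u : Fin n → A} (hw : C.T1 w) (hu : C.T1 u) : C.T1 (fun i => w i + u i) :=
  fun a b i => by rw [map_add, hw, hu, ac_add]

theorem T1.sub {w u : Fin n → A} (hw : C.T1 w) (hu : C.T1 u) : C.T1 (fun i => w i - u i) :=
  fun a b i => by rw [map_sub, hw, hu, ac_sub]

theorem T1.smul {w : Fin n → A} (c : ℝ) (hw : C.T1 w) : C.T1 (fun i => c • w i) :=
  fun a b i => by rw [Derivation.map_smul, hw, ac_smul]

theorem T1.mul0 {w : Fin n → A} {f : A} (hw : C.T1 w) (hf : C.T0 f) : C.T1 (fun i => f * w i) :=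
  fun a b i => by
    rw [Derivation.leibniz, hw, hf, smul_zero, add_zero, ac_mul_left, smul_eq_mul]

theorem T2.add {k u : Fin n → Fin n → A} (hk : C.T2 k) (hu : C.T2 u) :
    C.T2 (fun i j => k i j + u i j) := fun a b i j => by
  rw [map_add, hk, hu, ac_add, ac_add]
  ring

theorem T2.sub {k u : Fin n → Fin n → A} (hk : C.T2 k) (hu : C.T2 u) :
    C.T2 (fun i j => k i j - u i j) := fun a b i j => by
  rw [map_sub, hk, hu, ac_sub, ac_sub]
  ring

theorem T2.smul {k : Fin n → Fin n → A} (c : ℝ) (hk : C.T2 k) :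
    C.T2 (fun i j => c • k i j) := fun a b i j => by
  rw [Derivation.map_smul, hk, ac_smul, ac_smul, smul_add]

theorem T2.swap {k : Fin n → Fin n → A} (hk : C.T2 k) : C.T2 (fun i j => k j i) :=
  fun a b i j => by rw [hk, add_comm]

theorem T2.mul0 {k : Fin n → Fin n → A} {f : A} (hk : C.T2 k) (hf : C.T0 f) :
    C.T2 (fun i j => f * k i j) := fun a b i j => by
  rw [Derivation.leibniz, hk, hf, smul_zero, add_zero, ac_mul_left, ac_mul_left, smul_eq_mul,
    mul_add]

theorem T1.mul {w u : Fin n → A} (hw : C.T1 w) (hu : C.T1 u) : C.T2 (fun i j => w i * u j) :=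
  fun a b i j => by
    rw [Derivation.leibniz, hw, hu, ac_mul_right, ac_mul_left, smul_eq_mul, smul_eq_mul]
    ring

/-- the metric -/
theorem T2_delta : C.T2 (fun i j => if i = j then (1 : A) else 0) := by
  intro a b i j
  have h1 : C.V a b (if i = j then (1 : A) else 0) = 0 := by
    split_ifs <;> simp
  have e1 : (i = a) = (a = i) := propext eq_comm
  have e2 : (i = b) = (b = i) := propext eq_comm
  rw [h1]
  simp only [ac, e1, e2]
  split_ifs <;> ring

/-! ### traces -/

theorem T2.tr {k : Fin n → Fin n → A} (h : C.T2 k) : C.T0 (∑ i, k i i) := by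
  intro a b
  rw [map_sum]
  simp only [h a b]
  exact sum_ac_ac a b (fun j i => k j i)

theorem T3.tr12 {T : Fin n → Fin n → Fin n → A} (h : C.T3 T) : C.T1 (fun k => ∑ i, T i i k) := by
  intro a b k
  rw [map_sum]
  simp only [h a b]
  rw [Finset.sum_add_distrib, sum_ac_ac a b (fun j i => T j i k), zero_add,
    ac_sum Finset.univ a b (fun i k => T i i k)]

theorem T3.tr13 {T : Fin n → Fin n → Fin n → A} (h : C.T3 T) : C.T1 (fun j => ∑ i, T i j i) := by
  intro a b j
  rw [map_sum]
  simp only [h a b]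
  have e1 : ∀ i, ac a b (fun i' => T i' j i) i + ac a b (fun j => T i j i) j
      + ac a b (fun k => T i j k) i = (ac a b (fun i' => T i' j i) i + ac a b (fun k => T i j k) i)
      + ac a b (fun j => T i j i) j := fun i => by ring
  simp only [e1]
  rw [Finset.sum_add_distrib, sum_ac_ac a b (fun i' i => T i' j i), zero_add,
    ac_sum Finset.univ a b (fun i j => T i j i)]

theorem T4.tr12 {T : Fin n → Fin n → Fin n → Fin n → A} (h : C.T4 T) :
    C.T2 (fun k l => ∑ i, T i i k l) := by
  intro a b k l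
  rw [map_sum]
  simp only [h a b]
  have e1 : ∀ i, ac a b (fun i' => T i' i k l) i + ac a b (fun j => T i j k l) i
      + ac a b (fun k => T i i k l) k + ac a b (fun l => T i i k l) l =
      (ac a b (fun i' => T i' i k l) i + ac a b (fun j => T i j k l) i)
      + (ac a b (fun k => T i i k l) k + ac a b (fun l => T i i k l) l) := fun i => by ring
  simp only [e1]
  rw [Finset.sum_add_distrib, sum_ac_ac a b (fun j i => T j i k l), zero_add,
    Finset.sum_add_distrib, ac_sum Finset.univ a b (fun i k => T i i k l),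
    ac_sum Finset.univ a b (fun i l => T i i k l)]

/-- the Ricci tensor is a tensor -/
theorem T2_Ric : C.T2 C.Ric := by
  intro a b i j
  unfold Ric
  rw [map_sum]
  simp only [C.VR]
  have e1 : ∀ c, ac a b (fun i => C.R i c c j) i + ac a b (fun c' => C.R i c' c j) c
      + ac a b (fun c' => C.R i c c' j) c + ac a b (fun j => C.R i c c j) j =
      (ac a b (fun c' => C.R i c' c j) c + ac a b (fun c' => C.R i c c' j) c)
      + (ac a b (fun i => C.R i c c j) i + ac a b (fun j => C.R i c c j) j) := fun c => by ring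
  simp only [e1]
  rw [Finset.sum_add_distrib, sum_ac_ac a b (fun c' c => C.R i c' c j), zero_add,
    Finset.sum_add_distrib, ac_sum Finset.univ a b (fun c i => C.R i c c j),
    ac_sum Finset.univ a b (fun c j => C.R i c c j)]

/-! ### Ricci identities -/

/-- the curvature operator on one index -/
theorem sum_R_ac (i j : Fin n) (T : Fin n → A) (m : Fin n) :
    ∑ k, ∑ l, C.R i j k l * ac k l T m = (2 : ℝ) • ∑ c, C.R i j c m * T c :=
  sum_skew_ac (B := fun k l => C.R i j k l) (fun k l => C.R_skew i j k l) T m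

theorem sum_R_ac' (c m : Fin n) (T : Fin n → A) (p : Fin n) :
    ∑ i, ∑ j, C.R i j c m * ac i j T p = (2 : ℝ) • ∑ d, C.R d p c m * T d :=
  sum_skew_ac (B := fun i j => C.R i j c m) (fun i j => C.R_anti i j c m) T p

theorem half_two (x : A) : (1 / 2 : ℝ) • (2 : ℝ) • x = x := by
  rw [smul_smul]
  norm_num

/-- Ricci identity for functions -/
theorem T0.comm {f : A} (h : C.T0 f) (i j : Fin n) : C.H i (C.H j f) = C.H j (C.H i f) := by
  rw [HH]
  simp only [h _ _, mul_zero, Finset.sum_const_zero, smul_zero, add_zero]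

/-- Ricci identity for vector fields -/
theorem T1.comm {w : Fin n → A} (h : C.T1 w) (i j m : Fin n) :
    C.H i (C.H j (w m)) = C.H j (C.H i (w m)) + ∑ c, C.R i j c m * w c := by
  rw [HH]
  simp only [h _ _]
  rw [sum_R_ac, half_two]

/-- Ricci identity for tensors of rank two -/
theorem T2.comm {k : Fin n → Fin n → A} (h : C.T2 k) (i j p q : Fin n) :
    C.H i (C.H j (k p q)) = C.H j (C.H i (k p q)) +
      ∑ c, (C.R i j c p * k c q + C.R i j c q * k p c) := by
  rw [HH]
  simp only [h _ _, mul_add, Finset.sum_add_distrib]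
  rw [sum_R_ac i j (fun p => k p q), sum_R_ac i j (fun q => k p q), ← smul_add, half_two]

/-- Ricci identity for tensors of rank three -/
theorem T3.comm {T : Fin n → Fin n → Fin n → A} (h : C.T3 T) (i j p q r : Fin n) :
    C.H i (C.H j (T p q r)) = C.H j (C.H i (T p q r)) +
      ∑ c, (C.R i j c p * T c q r + C.R i j c q * T p c r + C.R i j c r * T p q c) := by
  rw [HH]
  simp only [h _ _, mul_add, Finset.sum_add_distrib]
  rw [sum_R_ac i j (fun p => T p q r), sum_R_ac i j (fun q => T p q r),
    sum_R_ac i j (fun r => T p q r), ← smul_add, ← smul_add, half_two]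

/-! ### the Casimir operator on tensors -/

theorem T0.curv {f : A} (h : C.T0 f) : C.curv f = 0 := by
  unfold FrCalc.curv
  simp only [h _ _, map_zero, mul_zero, Finset.sum_const_zero]

/-- on functions of the base the Casimir operator is the Laplacian -/
theorem T0.cas {f : A} (h : C.T0 f) : C.cas f = C.lap f := by
  unfold FrCalc.cas
  rw [h.curv, smul_zero, sub_zero]

theorem T1.curv {w : Fin n → A} (h : C.T1 w) (m : Fin n) :
    C.curv (w m) = (4 : ℝ) • ∑ a, C.Ric a m * w a := by
  unfold FrCalc.curv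
  have e1 : ∀ i j, ∑ k, ∑ l, C.R i j k l * C.V i j (C.V k l (w m)) =
      (2 : ℝ) • ∑ c, C.R i j c m * C.V i j (w c) := by
    intro i j
    simp only [h _ _ m, ac_map]
    exact sum_R_ac i j (fun c => C.V i j (w c)) m
  simp only [e1, ← Finset.smul_sum]
  have e2 : ∑ i, ∑ j, ∑ c, C.R i j c m * C.V i j (w c) =
      ∑ c, ∑ i, ∑ j, C.R i j c m * ac i j w c := by
    simp only [h _ _]
    calc ∑ i, ∑ j, ∑ c, C.R i j c m * ac i j w c
        = ∑ i, ∑ c, ∑ j, C.R i j c m * ac i j w c :=
          Finset.sum_congr rfl fun i _ => Finset.sum_comm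
      _ = _ := Finset.sum_comm
  rw [e2]
  simp only [sum_R_ac', ← Finset.smul_sum, smul_smul]
  rw [Finset.sum_comm]
  have e3 : ∀ a, ∑ c, C.R a c c m * w a = C.Ric a m * w a := fun a => by
    rw [Ric, Finset.sum_mul]
  simp only [e3]
  norm_num

/-- **the Casimir operator on vector fields** -/
theorem T1.cas {w : Fin n → A} (h : C.T1 w) (m : Fin n) :
    C.cas (w m) = C.lap (w m) - ∑ a, C.Ric a m * w a := by
  unfold FrCalc.cas
  rw [h.curv, smul_smul]
  norm_num

theorem T2.curv {k : Fin n → Fin n → A} (h : C.T2 k) (p q : Fin n) :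
    C.curv (k p q) = (4 : ℝ) • (∑ a, (C.Ric a p * k a q + C.Ric a q * k p a)
      + ∑ a, ∑ c, (C.R a q c p * k c a + C.R a p c q * k a c)) := by
  unfold FrCalc.curv
  have e1 : ∀ i j, ∑ a, ∑ b, C.R i j a b * C.V i j (C.V a b (k p q)) =
      (2 : ℝ) • ∑ c, (C.R i j c p * C.V i j (k c q) + C.R i j c q * C.V i j (k p c)) := by
    intro i j
    simp only [h _ _ p q, map_add, ac_map, mul_add, Finset.sum_add_distrib]
    rw [sum_R_ac i j (fun c => C.V i j (k c q)) p, sum_R_ac i j (fun c => C.V i j (k p c)) q,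
      smul_add]
  simp only [e1, ← Finset.smul_sum]
  have e2 : ∑ i, ∑ j, ∑ c, (C.R i j c p * C.V i j (k c q) + C.R i j c q * C.V i j (k p c)) =
      ∑ c, (∑ i, ∑ j, C.R i j c p * C.V i j (k c q) + ∑ i, ∑ j, C.R i j c q * C.V i j (k p c)) := by
    calc ∑ i, ∑ j, ∑ c, (C.R i j c p * C.V i j (k c q) + C.R i j c q * C.V i j (k p c))
        = ∑ i, ∑ c, ∑ j, (C.R i j c p * C.V i j (k c q) + C.R i j c q * C.V i j (k p c)) :=
          Finset.sum_congr rfl fun i _ => Finset.sum_comm
      _ = ∑ c, ∑ i, ∑ j, (C.R i j c p * C.V i j (k c q) + C.R i j c q * C.V i j (k p c)) :=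
          Finset.sum_comm
      _ = _ := by simp only [Finset.sum_add_distrib]
  rw [e2]
  have e3 : ∀ c, ∑ i, ∑ j, C.R i j c p * C.V i j (k c q) =
      (2 : ℝ) • ∑ d, (C.R d c c p * k d q + C.R d q c p * k c d) := by
    intro c
    simp only [h _ _ c q, mul_add, Finset.sum_add_distrib]
    rw [sum_R_ac' c p (fun d => k d q) c, sum_R_ac' c p (fun d => k c d) q, smul_add]
  have e4 : ∀ c, ∑ i, ∑ j, C.R i j c q * C.V i j (k p c) =
      (2 : ℝ) • ∑ d, (C.R d p c q * k d c + C.R d c c q * k p d) := by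
    intro c
    simp only [h _ _ p c, mul_add, Finset.sum_add_distrib]
    rw [sum_R_ac' c q (fun d => k d c) p, sum_R_ac' c q (fun d => k p d) c, smul_add]
  simp only [e3, e4, ← smul_add, ← Finset.smul_sum, smul_smul]
  have e5 : ∑ c, (∑ d, (C.R d c c p * k d q + C.R d q c p * k c d)
      + ∑ d, (C.R d p c q * k d c + C.R d c c q * k p d)) =
      ∑ a, (C.Ric a p * k a q + C.Ric a q * k p a)
      + ∑ a, ∑ c, (C.R a q c p * k c a + C.R a p c q * k a c) := by
    simp only [← Finset.sum_add_distrib, Ric, Finset.sum_mul]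
    rw [Finset.sum_comm]
    refine Finset.sum_congr rfl fun a _ => Finset.sum_congr rfl fun c _ => ?_
    ring
  rw [e5]
  norm_num

/-- **the Casimir operator on tensors of rank two** -/
theorem T2.cas {k : Fin n → Fin n → A} (h : C.T2 k) (p q : Fin n) :
    C.cas (k p q) = C.lap (k p q) - (∑ a, (C.Ric a p * k a q + C.Ric a q * k p a)
      + ∑ a, ∑ c, (C.R a q c p * k c a + C.R a p c q * k a c)) := by
  unfold FrCalc.cas
  rw [h.curv, smul_smul]
  norm_num

/-- **the Casimir operator on symmetric tensors of rank two** (minus the Lichnerowicz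
Laplacian) -/
theorem T2.cas_symm {k : Fin n → Fin n → A} (h : C.T2 k) (hs : ∀ i j, k i j = k j i)
    (p q : Fin n) :
    C.cas (k p q) = C.lap (k p q) - (∑ a, (C.Ric a p * k a q + C.Ric a q * k a p)
      + (2 : ℝ) • ∑ a, ∑ c, C.R a p c q * k a c) := by
  rw [h.cas]
  congr 2
  · exact Finset.sum_congr rfl fun a _ => by rw [hs p a]
  · simp only [Finset.sum_add_distrib]
    rw [two_smul]
    congr 1
    rw [Finset.sum_comm]
    refine Finset.sum_congr rfl fun a _ => Finset.sum_congr rfl fun c _ => ?_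
    rw [C.R_pair c q a p]

/-! ### the operators `δ*`, `δ` and the gauge identity -/

/-- **the gauge identity**: `∑_i H_i (H_i w_j + H_j w_i) = cas w_j + H_j (∑_i H_i w_i)
+ 2 ∑_a Ric_aj w_a` -/
theorem T1.gauge {w : Fin n → A} (h : C.T1 w) (j : Fin n) :
    ∑ i, C.H i (C.H i (w j) + C.H j (w i)) =
      C.cas (w j) + C.H j (∑ i, C.H i (w i)) + (2 : ℝ) • ∑ a, C.Ric a j * w a := by
  rw [h.cas, lap]
  simp only [map_add, map_sum, Finset.sum_add_distrib]
  have e1 : ∀ i, C.H i (C.H j (w i)) = C.H j (C.H i (w i)) + ∑ c, C.R i j c i * w c := fun i =>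
    h.comm i j i
  simp only [e1, Finset.sum_add_distrib]
  have e2 : ∑ i, ∑ c, C.R i j c i * w c = ∑ a, C.Ric a j * w a := by
    rw [Finset.sum_comm]
    refine Finset.sum_congr rfl fun a _ => ?_
    rw [Ric, Finset.sum_mul]
    refine Finset.sum_congr rfl fun i _ => ?_
    rw [C.R_pair i j a i]
  rw [e2, two_smul]
  ring

end FrCalc

end Vale.Agent.P207.H442
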