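import Vale.Agent.P207.H442.Weitz

/-!
# P207 / H442: fibre averages of tensors of rank three

`n (n+2) (n+4) ∫ x_000 y_000 = 6 ∫ ∑ x_ijk y_ijk` for `x` symmetric and trace free.
-/

set_option linter.unusedSectionVars false

noncomputable section

namespace Vale.Agent.P207.H442

open Finset

namespace FrCalc

variable {n : ℕ} {A : Type*} [CommRing A] [Algebra ℝ A] {C : FrCalc n A} {I : A →ₗ[ℝ] ℝ}

theorem T3.s213 {y : Fin n → Fin n → Fin n → A} (h : C.T3 y) : C.T3 (fun i j k => y j i k) := by
  intro a b i j k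
  rw [h a b]
  ring

theorem T3.s132 {y : Fin n → Fin n → Fin n → A} (h : C.T3 y) : C.T3 (fun i j k => y i k j) := by
  intro a b i j k
  rw [h a b]
  ring

theorem T3.add {x y : Fin n → Fin n → Fin n → A} (hx : C.T3 x) (hy : C.T3 y) :
    C.T3 (fun i j k => x i j k + y i j k) := by
  intro a b i j k
  rw [map_add, hx, hy, ac_add, ac_add, ac_add]
  ring

theorem ac_diag (a o : Fin n) (T : Fin n → A) :
    ac a o T a = (if a = o then T o else 0) - T o := by
  unfold ac
  rw [if_pos rfl]
  congr 1
  by_cases h : a = o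
  · subst h; simp
  · rw [if_neg h, if_neg (Ne.symm h)]

theorem ac_last (a o : Fin n) (T : Fin n → A) :
    ac a o T o = T a - (if a = o then T o else 0) := by
  unfold ac
  rw [if_pos rfl]

/-- the last index -/
theorem avg1 (hI : C.IsInt I) {x y : Fin n → Fin n → Fin n → A} (hx : C.T3 x) (hy : C.T3 y)
    (o : Fin n) : (n : ℝ) * ∑ a, ∑ b, I (x a b o * y a b o) =
      ∑ a, ∑ b, ∑ c, I (x a b c * y a b c) := by
  have e1 : ∀ c, ∑ a, ∑ b, C.V c o (x a b c * y a b o) =
      ∑ a, ∑ b, x a b c * y a b c - ∑ a, ∑ b, x a b o * y a b o := by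
    intro c
    have h1 : ∀ a b, C.V c o (x a b c * y a b o) = (x a b c * y a b c - x a b o * y a b o) +
        ((ac c o (fun a => x a b c) a * y a b o + x a b c * ac c o (fun a => y a b o) a) +
        (ac c o (fun b => x a b c) b * y a b o + x a b c * ac c o (fun b => y a b o) b)) := by
      intro a b
      rw [Derivation.leibniz, smul_eq_mul, smul_eq_mul, hx c o, hy c o, ac_diag c o,
        ac_last c o]
      by_cases h : c = o
      · subst h
        simp only [if_true]
        ring
      · simp only [if_neg h]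
        ring
    simp only [h1, sum_add_distrib, sum_sub_distrib]
    have h2 : ∑ a, ∑ b, ac c o (fun b => x a b c) b * y a b o +
        ∑ a, ∑ b, x a b c * ac c o (fun b => y a b o) b = 0 := by
      simp only [← sum_add_distrib]
      exact sum_eq_zero fun a _ => sum_ac_mul c o (fun b => x a b c) (fun b => y a b o)
    have h3 : ∑ a, ∑ b, ac c o (fun a => x a b c) a * y a b o +
        ∑ a, ∑ b, x a b c * ac c o (fun a => y a b o) a = 0 := by
      simp only [← sum_add_distrib]
      rw [sum_comm]
      exact sum_eq_zero fun b _ => sum_ac_mul c o (fun a => x a b c) (fun a => y a b o)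
    rw [h2, h3, add_zero, add_zero]
  have e2 : ∀ c, ∑ a, ∑ b, I (x a b c * y a b c) = ∑ a, ∑ b, I (x a b o * y a b o) := by
    intro c
    have h1 := congrArg I (e1 c)
    simp only [map_sum, map_sub, hI.ver, sum_const_zero] at h1
    linarith
  have e3 : ∑ a, ∑ b, ∑ c, I (x a b c * y a b c) = ∑ c, ∑ a, ∑ b, I (x a b c * y a b c) := by
    exact H442.s312 (fun a b c => I (x a b c * y a b c))
  rw [e3, sum_congr rfl fun c _ => e2 c, sum_const, card_univ, Fintype.card_fin, nsmul_eq_mul]

/-- the last two indices -/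
theorem avg2 (hI : C.IsInt I) {x y : Fin n → Fin n → Fin n → A} (hx : C.T3 x) (hy : C.T3 y)
    (htr : ∀ a, ∑ b, x a b b = 0) (o : Fin n) : ((n : ℝ) + 2) * ∑ a, I (x a o o * y a o o) =
      ∑ a, ∑ b, I (x a b o * (y a b o + y a o b)) := by
  have e1 : ∀ b, ∑ a, C.V b o (x a b o * y a o o) =
      ∑ a, x a b o * (y a b o + y a o b) + (∑ a, x a b b * y a o o - ∑ a, x a o o * y a o o)
      - (if b = o then (2 : ℝ) • ∑ a, x a o o * y a o o else 0) := by
    intro b
    have h1 : ∀ a, C.V b o (x a b o * y a o o) = (x a b o * (y a b o + y a o b) +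
        (x a b b * y a o o - x a o o * y a o o)
        - (if b = o then (2 : ℝ) • (x a o o * y a o o) else 0)) +
        (ac b o (fun a => x a b o) a * y a o o + x a b o * ac b o (fun a => y a o o) a) := by
      intro a
      rw [Derivation.leibniz, smul_eq_mul, smul_eq_mul, hx b o, hy b o, ac_diag b o,
        ac_last b o, ac_last b o, ac_last b o]
      by_cases h : b = o
      · subst h
        simp only [if_true, two_smul]
        ring
      · simp only [if_neg h]
        ring
    simp only [h1, sum_add_distrib, sum_sub_distrib]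
    have h3 : ∑ a, ac b o (fun a => x a b o) a * y a o o +
        ∑ a, x a b o * ac b o (fun a => y a o o) a = 0 := by
      rw [← sum_add_distrib]
      exact sum_ac_mul b o (fun a => x a b o) (fun a => y a o o)
    rw [h3, add_zero]
    congr 1
    split_ifs
    · rw [smul_sum]
    · simp
  have e2 : ∀ b, 0 = ∑ a, I (x a b o * (y a b o + y a o b)) +
      (∑ a, I (x a b b * y a o o) - ∑ a, I (x a o o * y a o o))
      - (if b = o then 2 * ∑ a, I (x a o o * y a o o) else 0) := by
    intro b
    have h1 := congrArg I (e1 b)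
    simp only [map_sum, map_sub, map_add, hI.ver, sum_const_zero, apply_ite I, map_zero,
      map_smul, smul_eq_mul] at h1
    exact h1
  have e3 : ∑ b, ∑ a, I (x a b b * y a o o) = 0 := by
    rw [sum_comm]
    refine sum_eq_zero fun a _ => ?_
    rw [← map_sum, ← sum_mul, htr, zero_mul, map_zero]
  have e4 : (0 : ℝ) = ∑ b, ∑ a, I (x a b o * (y a b o + y a o b)) +
      (∑ b, ∑ a, I (x a b b * y a o o) - (n : ℝ) * ∑ a, I (x a o o * y a o o))
      - 2 * ∑ a, I (x a o o * y a o o) := by
    have h1 : ∑ b : Fin n, (0 : ℝ) = ∑ b : Fin n, _ := sum_congr rfl fun b _ => e2 b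
    simp only [sum_const_zero, sum_add_distrib, sum_sub_distrib, sum_const, card_univ,
      Fintype.card_fin, nsmul_eq_mul, sum_ite_eq', mem_univ, if_true] at h1
    exact h1
  rw [e3] at e4
  rw [sum_comm]
  linarith

/-- the three indices -/
theorem avg3 (hI : C.IsInt I) {x y : Fin n → Fin n → Fin n → A} (hx : C.T3 x) (hy : C.T3 y)
    (htr : ∀ a, ∑ b, x b b a = 0) (htr' : ∀ a, ∑ b, x b a b = 0) (o : Fin n) :
    ((n : ℝ) + 4) * I (x o o o * y o o o) =
      ∑ a, I (x a o o * (y a o o + y o a o + y o o a)) := by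
  have e1 : ∀ a, C.V a o (x a o o * y o o o) =
      x a o o * (y a o o + y o a o + y o o a) + ((x a a o + x a o a) * y o o o - x o o o * y o o o)
      - (if a = o then (4 : ℝ) • (x o o o * y o o o) else 0) := by
    intro a
    rw [Derivation.leibniz, smul_eq_mul, smul_eq_mul, hx a o, hy a o, ac_diag a o,
      ac_last a o, ac_last a o, ac_last a o, ac_last a o, ac_last a o]
    by_cases h : a = o
    · subst h
      simp only [if_true, Algebra.smul_def, map_ofNat]
      ring
    · simp only [if_neg h]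
      ring
  have e2 : ∀ a, 0 = I (x a o o * (y a o o + y o a o + y o o a)) +
      (I ((x a a o + x a o a) * y o o o) - I (x o o o * y o o o))
      - (if a = o then 4 * I (x o o o * y o o o) else 0) := by
    intro a
    have h1 := congrArg I (e1 a)
    simp only [map_sub, map_add, hI.ver, apply_ite I, map_zero, map_smul, smul_eq_mul] at h1
    exact h1
  have e3 : ∑ a, I ((x a a o + x a o a) * y o o o) = 0 := by
    rw [← map_sum, ← sum_mul, sum_add_distrib, htr, htr', add_zero, zero_mul, map_zero]
  have e4 : (0 : ℝ) = ∑ a, I (x a o o * (y a o o + y o a o + y o o a)) +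
      (∑ a, I ((x a a o + x a o a) * y o o o) - (n : ℝ) * I (x o o o * y o o o))
      - 4 * I (x o o o * y o o o) := by
    have h1 : ∑ a : Fin n, (0 : ℝ) = ∑ a : Fin n, _ := sum_congr rfl fun a _ => e2 a
    simp only [sum_const_zero, sum_add_distrib, sum_sub_distrib, sum_const, card_univ,
      Fintype.card_fin, nsmul_eq_mul, sum_ite_eq', mem_univ, if_true] at h1
    exact h1
  rw [e3] at e4
  linarith

/-- **the fibre average of rank six** -/
theorem IsInt.avg6 (hI : C.IsInt I) {x y : Fin n → Fin n → Fin n → A} (hx : C.T3 x)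
    (hy : C.T3 y) (h12 : ∀ i j k, x i j k = x j i k) (h23 : ∀ i j k, x i j k = x i k j)
    (htr : ∀ a, ∑ b, x b b a = 0) (o : Fin n) :
    (n : ℝ) * (n + 2) * (n + 4) * I (x o o o * y o o o) = 6 * I (ip3 x y) := by
  have htr' : ∀ a, ∑ b, x b a b = 0 := by
    intro a
    rw [← htr a]
    exact sum_congr rfl fun b _ => h23 b a b
  have htr'' : ∀ a, ∑ b, x a b b = 0 := by
    intro a
    rw [← htr a]
    refine sum_congr rfl fun b _ => ?_
    rw [h12 a b b, h23 b a b]
  have h1 := avg3 hI hx hy htr htr' o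
  have g1 : ∀ z : Fin n → Fin n → Fin n → A, C.T3 z → (n : ℝ) * (n + 2) *
      ∑ a, I (x a o o * z a o o) = ∑ a, ∑ b, ∑ c, I (x a b c * (z a b c + z a c b)) := by
    intro z hz
    have h2 := avg2 hI hx hz htr'' o
    have h3 := avg1 hI hx (hz.add hz.s132) o
    rw [← h3, mul_assoc, h2]
  have h4 := g1 y hy
  have h5 := g1 _ hy.s213
  have h6 := g1 _ hy.s213.s132.s213
  have h7 : ∑ a, I (x a o o * (y a o o + y o a o + y o o a)) = ∑ a, I (x a o o * y a o o) +
      ∑ a, I (x a o o * y o a o) + ∑ a, I (x a o o * y o o a) := by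
    simp only [mul_add, map_add, sum_add_distrib]
  have i0 : I (ip3 x y) = ∑ a, ∑ b, ∑ c, I (x a b c * y a b c) := by
    unfold ip3
    simp only [map_sum]
  have i1 : ∑ a, ∑ b, ∑ c, I (x a b c * y a c b) = I (ip3 x y) := by
    rw [i0, H442.s132 (fun a b c => I (x a b c * y a c b))]
    refine sum_congr rfl fun a _ => sum_congr rfl fun b _ => sum_congr rfl fun c _ => ?_
    rw [h23 a c b]
  have i2 : ∑ a, ∑ b, ∑ c, I (x a b c * y b a c) = I (ip3 x y) := by
    rw [i0, H442.s213 (fun a b c => I (x a b c * y b a c))]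
    refine sum_congr rfl fun a _ => sum_congr rfl fun b _ => sum_congr rfl fun c _ => ?_
    rw [h12 b a c]
  have i3 : ∑ a, ∑ b, ∑ c, I (x a b c * y c a b) = I (ip3 x y) := by
    rw [← i2, H442.s132 (fun a b c => I (x a b c * y c a b))]
    refine sum_congr rfl fun a _ => sum_congr rfl fun b _ => sum_congr rfl fun c _ => ?_
    rw [h23 a c b]
  have i4 : ∑ a, ∑ b, ∑ c, I (x a b c * y b c a) = I (ip3 x y) := by
    rw [← i1, H442.s213 (fun a b c => I (x a b c * y b c a))]
    refine sum_congr rfl fun a _ => sum_congr rfl fun b _ => sum_congr rfl fun c _ => ?_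
    rw [h12 b a c]
  have i5 : ∑ a, ∑ b, ∑ c, I (x a b c * y c b a) = I (ip3 x y) := by
    rw [← i3, H442.s213 (fun a b c => I (x a b c * y c b a))]
    refine sum_congr rfl fun a _ => sum_congr rfl fun b _ => sum_congr rfl fun c _ => ?_
    rw [h12 b a c]
  simp only [mul_add, map_add, sum_add_distrib] at h4 h5 h6
  rw [h7] at h1
  rw [i1, ← i0] at h4
  rw [i2, i3] at h5
  rw [i4, i5] at h6
  have h8 : (n : ℝ) * (n + 2) * (n + 4) * I (x o o o * y o o o) =
      (n : ℝ) * (n + 2) * ((n + 4) * I (x o o o * y o o o)) := by ring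
  rw [h8, h1]
  linarith

end FrCalc

end Vale.Agent.P207.H442
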