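import Vale.Agent.P207.H442.Avg

/-!
# P207 / H442: the Weitzenboeck inequality on the unit tangent bundle

For `k` symmetric of type `(2,2)`, divergence free, `F = X k_00`:
`n (n+2) (n+4) (15 |F|² - ⟨Δ_2 F, F⟩) = ∫ |Z|²`.
-/

set_option linter.unusedSectionVars false

noncomputable section

namespace Vale.Agent.P207.H442

open Finset

namespace FrCalc

variable {n : ℕ} {A : Type*} [CommRing A] [Algebra ℝ A] {C : FrCalc n A} {I : A →ₗ[ℝ] ℝ}
  {Om : Fin n → Fin n → Fin n → Fin n → A}

theorem T3_M12 (hO : C.T4 Om) {y : Fin n → Fin n → Fin n → A} (hy : C.T3 y) :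
    C.T3 (M12 Om y) := by
  intro a b i j k
  have h1 : ∀ p q, C.V a b (Om i p j q * y p q k) =
      (ac a b (fun i => Om i p j q) i * y p q k + ac a b (fun j => Om i p j q) j * y p q k +
        Om i p j q * ac a b (fun k => y p q k) k) +
      ((ac a b (fun p => Om i p j q) p * y p q k + Om i p j q * ac a b (fun p => y p q k) p) +
      (ac a b (fun q => Om i p j q) q * y p q k + Om i p j q * ac a b (fun q => y p q k) q)) := by
    intro p q
    rw [Derivation.leibniz, smul_eq_mul, smul_eq_mul, hO a b, hy a b]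
    ring
  have h2 : ∑ p, ∑ q, ac a b (fun p => Om i p j q) p * y p q k +
      ∑ p, ∑ q, Om i p j q * ac a b (fun p => y p q k) p = 0 := by
    simp only [← sum_add_distrib]
    rw [sum_comm]
    exact sum_eq_zero fun q _ => sum_ac_mul a b (fun p => Om i p j q) (fun p => y p q k)
  have h3 : ∑ p, ∑ q, ac a b (fun q => Om i p j q) q * y p q k +
      ∑ p, ∑ q, Om i p j q * ac a b (fun q => y p q k) q = 0 := by
    simp only [← sum_add_distrib]
    exact sum_eq_zero fun p _ => sum_ac_mul a b (fun q => Om i p j q) (fun q => y p q k)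
  have h4 : C.V a b (M12 Om y i j k) = ∑ p, ∑ q, C.V a b (Om i p j q * y p q k) := by
    unfold M12
    simp only [map_sum]
  rw [h4]
  simp only [h1, sum_add_distrib]
  rw [h2, h3, add_zero, add_zero]
  congr 1
  · congr 1
    · unfold M12
      rw [ac_sum Finset.univ a b (fun p i => ∑ q, Om i p j q * y p q k)]
      refine sum_congr rfl fun p _ => ?_
      rw [ac_sum Finset.univ a b (fun q i => Om i p j q * y p q k)]
      exact sum_congr rfl fun q _ => (ac_mul_right a b (y p q k) (fun i => Om i p j q) i).symm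
    · unfold M12
      rw [ac_sum Finset.univ a b (fun p j => ∑ q, Om i p j q * y p q k)]
      refine sum_congr rfl fun p _ => ?_
      rw [ac_sum Finset.univ a b (fun q j => Om i p j q * y p q k)]
      exact sum_congr rfl fun q _ => (ac_mul_right a b (y p q k) (fun j => Om i p j q) j).symm
  · unfold M12
    rw [ac_sum Finset.univ a b (fun p k => ∑ q, Om i p j q * y p q k)]
    refine sum_congr rfl fun p _ => ?_
    rw [ac_sum Finset.univ a b (fun q k => Om i p j q * y p q k)]
    exact sum_congr rfl fun q _ => (ac_mul_left a b (Om i p j q) (fun k => y p q k) k).symm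

/-- three times the symmetrization of the covariant derivative -/
def ysym (C : FrCalc n A) (h : Fin n → Fin n → A) (i j k : Fin n) : A :=
  C.nab h i j k + C.nab h j i k + C.nab h k i j

variable {h : Fin n → Fin n → A}

theorem T3_ysym (hh : C.T2 h) : C.T3 (C.ysym h) := by
  have h1 : C.T3 (C.nab h) := hh.nabla
  have h2 := (h1.add h1.s213).add h1.s213.s132
  exact h2

theorem ysym_12 (hs : ∀ i j, h i j = h j i) (i j k : Fin n) : C.ysym h i j k = C.ysym h j i k := by
  unfold ysym nab
  rw [hs i j]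
  ring

theorem ysym_23 (hs : ∀ i j, h i j = h j i) (i j k : Fin n) : C.ysym h i j k = C.ysym h i k j := by
  unfold ysym nab
  rw [hs j k]
  ring

theorem ysym_tr (hdiv : ∀ k, ∑ i, C.H i (h i k) = 0)
    (htr : ∑ i, h i i = 0) (k : Fin n) : ∑ i, C.ysym h i i k = 0 := by
  unfold ysym nab
  rw [sum_add_distrib, sum_add_distrib, hdiv, ← map_sum, htr, map_zero]
  simp

theorem ysym_diag (o : Fin n) : C.ysym h o o o = (3 : ℝ) • C.H o (h o o) := by
  unfold ysym nab
  simp only [Algebra.smul_def, map_ofNat]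
  ring

/-- the leafwise Laplacian of the fibre -/
def Dl2 (C : FrCalc n A) (Om : Fin n → Fin n → Fin n → Fin n → A) (o : Fin n) (F : A) : A :=
  -∑ i, ∑ j, Om o i o j * C.V i o (C.V j o F)

theorem Dl2_smul (o : Fin n) (c : ℝ) (F : A) : C.Dl2 Om o (c • F) = c • C.Dl2 Om o F := by
  unfold Dl2
  simp only [Derivation.map_smul, mul_smul_comm, ← smul_sum, smul_neg]

/-- `Δ_2 y_000 = 9 y_000 - 6 (M y)_000` -/
theorem Dl2_T3 (ha : ∀ i j k l, Om i j k l = - Om j i k l)
    (hp : ∀ i j k l, Om i j k l = Om k l i j) (o : Fin n) (htr : ∑ j, Om o j o j = 3)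
    {y : Fin n → Fin n → Fin n → A} (hy : C.T3 y) (h12 : ∀ i j k, y i j k = y j i k)
    (h23 : ∀ i j k, y i j k = y i k j) :
    C.Dl2 Om o (y o o o) = (9 : ℝ) • y o o o - (6 : ℝ) • M12 Om y o o o := by
  have h0 : ∀ k l, Om o o k l = 0 := by
    intro k l
    have h1 := ha o o k l
    have h2 : (2 : ℝ) • Om o o k l = 0 := by
      rw [two_smul]
      nth_rewrite 1 [h1]
      simp
    have h3 := congrArg (fun z => (1 / 2 : ℝ) • z) h2
    simpa [smul_smul] using h3
  have e1 : ∀ i j, Om o i o j * C.V i o (C.V j o (y o o o)) =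
      (6 : ℝ) • (Om o i o j * y i j o) - (3 : ℝ) • (if i = j then Om o i o j * y o o o else 0) := by
    intro i j
    by_cases hi : i = o
    · subst hi
      simp [h0]
    by_cases hj : j = o
    · subst hj
      rw [hp j i j j]
      simp [h0]
    have e2 : C.V j o (y o o o) = (3 : ℝ) • y j o o := by
      rw [hy j o, ac_last, ac_last, ac_last, if_neg hj, h12 o j o, h23 o o j, h12 o j o]
      simp only [Algebra.smul_def, map_ofNat]
      ring
    have e3 : C.V i o (y j o o) = (2 : ℝ) • y i j o - (if i = j then y o o o else 0) := by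
      rw [hy i o, ac_last, ac_last, if_neg hi, ac, if_neg (Ne.symm hj), h23 j o i, h12 j i o]
      simp only [Algebra.smul_def, map_ofNat]
      ring
    rw [e2, Derivation.map_smul, e3]
    split_ifs <;>
    · simp only [Algebra.smul_def, map_ofNat]
      ring
  unfold Dl2
  simp only [e1, sum_sub_distrib, ← smul_sum, sum_ite_eq, mem_univ, if_true, ← sum_mul, htr]
  unfold M12
  simp only [Algebra.smul_def, map_ofNat]
  ring

/-- **the exact identity on the unit tangent bundle** -/
theorem IsInt.c1_eq (hI : C.IsInt I) (hh : C.T2 h) (hO : C.QForm Om) (hO4 : C.T4 Om)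
    (o : Fin n) (htrO : ∑ j, Om o j o j = 3)
    (hs : ∀ i j, h i j = h j i) (hdiv : ∀ k, ∑ i, C.H i (h i k) = 0) (htr : ∑ i, h i i = 0) :
    (n : ℝ) * (n + 2) * (n + 4) * (15 * I (C.H o (h o o) * C.H o (h o o)) -
      I (C.Dl2 Om o (C.H o (h o o)) * C.H o (h o o))) =
      I (ip3 (fun i j k => C.ysym h i j k + M12 Om (C.ysym h) i j k)
        (fun i j k => C.ysym h i j k + M12 Om (C.ysym h) i j k)) := by
  have hO2 : ∀ i p j q, Om i p j q = Om p i q j := by
    intro i p j q
    rw [hO.anti i p j q, hO.pair p i j q, hO.anti j q p i, hO.pair q j p i, neg_neg]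
  have e1 := ip3_Z hO2 hO.sq (C.ysym h)
  have a1 := hI.avg6 (T3_ysym hh) (T3_ysym hh) (ysym_12 hs) (ysym_23 hs)
    (ysym_tr hdiv htr) o
  have a2 := hI.avg6 (T3_ysym hh) (T3_M12 hO4 (T3_ysym hh)) (ysym_12 hs) (ysym_23 hs)
    (ysym_tr hdiv htr) o
  have d1 := Dl2_T3 hO.anti hO.pair o htrO (T3_ysym hh) (ysym_12 (C := C) hs) (ysym_23 hs)
  have f1 : C.H o (h o o) = (1 / 3 : ℝ) • C.ysym h o o o := by
    rw [ysym_diag, smul_smul]
    norm_num
  have f2 : I (C.H o (h o o) * C.H o (h o o)) = 1 / 9 * I (C.ysym h o o o * C.ysym h o o o) := by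
    rw [f1, smul_mul_smul_comm, map_smul, smul_eq_mul]
    norm_num
  have f3 : I (C.Dl2 Om o (C.H o (h o o)) * C.H o (h o o)) =
      I (C.ysym h o o o * C.ysym h o o o) -
        2 / 3 * I (C.ysym h o o o * M12 Om (C.ysym h) o o o) := by
    rw [f1, Dl2_smul, d1, smul_mul_smul_comm, map_smul, sub_mul, map_sub, smul_mul_assoc,
      smul_mul_assoc, map_smul, map_smul, smul_eq_mul, smul_eq_mul, smul_eq_mul,
      mul_comm (M12 Om (C.ysym h) o o o)]
    ring
  have e2 : I (4 * (ip3 (C.ysym h) (C.ysym h) + ip3 (C.ysym h) (M12 Om (C.ysym h)))) =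
      4 * I (ip3 (C.ysym h) (C.ysym h)) + 4 * I (ip3 (C.ysym h) (M12 Om (C.ysym h))) := by
    have e5 : ∀ x y : A, 4 * (x + y) = (4 : ℝ) • x + (4 : ℝ) • y := by
      intro x y
      simp only [Algebra.smul_def, map_ofNat]
      ring
    rw [e5]
    simp only [map_add, map_smul, smul_eq_mul]
  rw [e1, e2, f2, f3]
  linarith

end FrCalc

end Vale.Agent.P207.H442
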