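import Mathlib

/-!
# P207 / H442: the calculus of the orthonormal frame bundle, abstractly

`FrCalc n A`: `A` is a commutative algebra of functions on the frame bundle of a Riemannian
`n`-manifold, `H i` the horizontal derivations, `V i j` the rotations, `R i j k l` the curvature
components.  If the curvature is parallel (`H m (R i j k l) = 0`), the operator
`cas = ∑ H_i² - (1/4) ∑ R_ijkl V_ij V_kl` commutes with all `H m`, with all `V a b`, and with the
multiplication by every parallel function.  On equivariant families (tensors) `cas` is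
`∑ H_i²` plus a zero order term.
-/

set_option linter.unusedSectionVars false

noncomputable section

namespace Vale.Agent.P207.H442

open Finset

/-- the action of the rotation `a b` on one index: `δ_bi T_a - δ_ai T_b` -/
def ac {n : ℕ} {A : Type*} [AddCommGroup A] (a b : Fin n) (T : Fin n → A) (i : Fin n) : A :=
  (if b = i then T a else 0) - (if a = i then T b else 0)

section Ac

variable {n : ℕ} {A B : Type*}

theorem ac_map [AddCommGroup A] [AddCommGroup B] {F : Type*} [FunLike F A B]
    [AddMonoidHomClass F A B] (L : F) (a b : Fin n) (T : Fin n → A) (i : Fin n) :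
    L (ac a b T i) = ac a b (fun i => L (T i)) i := by
  unfold ac
  rw [map_sub]
  congr 1
  · split_ifs <;> simp
  · split_ifs <;> simp

theorem ac_add [AddCommGroup A] (a b : Fin n) (T U : Fin n → A) (i : Fin n) :
    ac a b (fun i => T i + U i) i = ac a b T i + ac a b U i := by
  unfold ac
  rw [sub_add_sub_comm]
  congr 1
  · split_ifs <;> simp
  · split_ifs <;> simp

theorem ac_neg [AddCommGroup A] (a b : Fin n) (T : Fin n → A) (i : Fin n) :
    ac a b (fun i => - T i) i = - ac a b T i := by
  unfold ac
  rw [neg_sub, sub_eq_neg_add, sub_eq_neg_add]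
  rw [add_comm]
  congr 1
  · split_ifs <;> simp
  · split_ifs <;> simp

theorem ac_sub [AddCommGroup A] (a b : Fin n) (T U : Fin n → A) (i : Fin n) :
    ac a b (fun i => T i - U i) i = ac a b T i - ac a b U i := by
  simp only [sub_eq_add_neg]
  rw [ac_add, ac_neg]

theorem ac_sum [AddCommGroup A] {κ : Type*} (s : Finset κ) (a b : Fin n) (T : κ → Fin n → A)
    (i : Fin n) : ac a b (fun i => ∑ k ∈ s, T k i) i = ∑ k ∈ s, ac a b (T k) i := by
  unfold ac
  rw [Finset.sum_sub_distrib]
  congr 1
  · split_ifs <;> simp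
  · split_ifs <;> simp

theorem ac_smul [AddCommGroup A] [Module ℝ A] (a b : Fin n) (c : ℝ) (T : Fin n → A) (i : Fin n) :
    ac a b (fun i => c • T i) i = c • ac a b T i := by
  unfold ac
  rw [smul_sub, smul_ite, smul_ite, smul_zero]

theorem ac_mul_left [CommRing A] (a b : Fin n) (c : A) (T : Fin n → A) (i : Fin n) :
    ac a b (fun i => c * T i) i = c * ac a b T i := by
  unfold ac
  rw [mul_sub, mul_ite, mul_ite, mul_zero]

theorem ac_mul_right [CommRing A] (a b : Fin n) (c : A) (T : Fin n → A) (i : Fin n) :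
    ac a b (fun i => T i * c) i = ac a b T i * c := by
  unfold ac
  rw [sub_mul, ite_mul, ite_mul, zero_mul]

theorem ac_const [AddCommGroup A] (a b : Fin n) (c : A) (i : Fin n) :
    ac a b (fun _ => c) i = (if b = i then c else 0) - (if a = i then c else 0) := rfl

/-- contraction of two indices -/
theorem sum_ac_mul [CommRing A] (a b : Fin n) (T U : Fin n → A) :
    ∑ i, (ac a b T i * U i + T i * ac a b U i) = 0 := by
  simp only [ac, sub_mul, mul_sub, ite_mul, zero_mul, mul_ite, mul_zero, Finset.sum_add_distrib,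
    Finset.sum_sub_distrib, Finset.sum_ite_eq, Finset.mem_univ, if_true]
  ring

/-- contraction of two indices of one family -/
theorem sum_ac_ac [AddCommGroup A] (a b : Fin n) (T : Fin n → Fin n → A) :
    ∑ i, (ac a b (fun j => T j i) i + ac a b (fun j => T i j) i) = 0 := by
  simp only [ac, Finset.sum_add_distrib, Finset.sum_sub_distrib, Finset.sum_ite_eq,
    Finset.mem_univ, if_true]
  rw [sub_add_sub_comm, add_comm (T b a), sub_self]

/-- a sum weighted by the action on a vector -/
theorem sum_ac [AddCommGroup A] (a b : Fin n) (T : Fin n → A) : ∑ i, ac a b T i = T a - T b := by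
  simp only [ac, Finset.sum_sub_distrib, Finset.sum_ite_eq, Finset.mem_univ, if_true]

end Ac

/-- the calculus of the orthonormal frame bundle -/
structure FrCalc (n : ℕ) (A : Type*) [CommRing A] [Algebra ℝ A] where
  /-- horizontal derivations -/
  H : Fin n → Derivation ℝ A A
  /-- rotations -/
  V : Fin n → Fin n → Derivation ℝ A A
  /-- curvature components `⟨R(e_i, e_j) e_k, e_l⟩` -/
  R : Fin n → Fin n → Fin n → Fin n → A
  V_swap : ∀ i j f, V i j f = -V j i f
  VH' : ∀ a b k f, V a b (H k f) - H k (V a b f) = ac a b (fun k => H k f) k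
  VV' : ∀ a b k l f, V a b (V k l f) - V k l (V a b f) =
    ac a b (fun k => V k l f) k + ac a b (fun l => V k l f) l
  HH' : ∀ i j f, H i (H j f) - H j (H i f) = (1 / 2 : ℝ) • ∑ k, ∑ l, R i j k l * V k l f
  R_anti : ∀ i j k l, R i j k l = -R j i k l
  R_skew : ∀ i j k l, R i j k l = -R i j l k
  R_pair : ∀ i j k l, R i j k l = R k l i j
  R_bianchi : ∀ i j k l, R i j k l + R j k i l + R k i j l = 0
  VR : ∀ a b i j k l, V a b (R i j k l) = ac a b (fun i => R i j k l) i
    + ac a b (fun j => R i j k l) j + ac a b (fun k => R i j k l) k + ac a b (fun l => R i j k l) l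

namespace FrCalc

variable {n : ℕ} {A : Type*} [CommRing A] [Algebra ℝ A] (C : FrCalc n A)

/-- the curvature is parallel -/
def Par : Prop := ∀ m i j k l, C.H m (C.R i j k l) = 0

/-- the rough Laplacian on functions of frames -/
def lap (f : A) : A := ∑ i, C.H i (C.H i f)

/-- the curvature part of the Casimir operator -/
def curv (f : A) : A := ∑ i, ∑ j, ∑ k, ∑ l, C.R i j k l * C.V i j (C.V k l f)

/-- the Casimir operator -/
def cas (f : A) : A := C.lap f - (1 / 4 : ℝ) • C.curv f

variable {C}

theorem VH (a b k : Fin n) (f : A) : C.V a b (C.H k f) = C.H k (C.V a b f) +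
    ac a b (fun k => C.H k f) k := by
  rw [← C.VH' a b k f]; ring

theorem VV (a b k l : Fin n) (f : A) : C.V a b (C.V k l f) = C.V k l (C.V a b f) +
    (ac a b (fun k => C.V k l f) k + ac a b (fun l => C.V k l f) l) := by
  rw [← C.VV' a b k l f]; ring

theorem HH (i j : Fin n) (f : A) : C.H i (C.H j f) = C.H j (C.H i f) +
    (1 / 2 : ℝ) • ∑ k, ∑ l, C.R i j k l * C.V k l f := by
  rw [← C.HH' i j f]; ring

/-! ### linearity -/

theorem lap_add (f h : A) : C.lap (f + h) = C.lap f + C.lap h := by
  simp only [lap, map_add, Finset.sum_add_distrib]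

theorem lap_smul (c : ℝ) (f : A) : C.lap (c • f) = c • C.lap f := by
  simp only [lap, Derivation.map_smul, Finset.smul_sum]

theorem curv_add (f h : A) : C.curv (f + h) = C.curv f + C.curv h := by
  simp only [curv, map_add, mul_add, Finset.sum_add_distrib]

theorem curv_smul (c : ℝ) (f : A) : C.curv (c • f) = c • C.curv f := by
  simp only [curv, Derivation.map_smul, mul_smul_comm, Finset.smul_sum]

variable (C) in
/-- the Casimir operator as a linear map -/
def casL : A →ₗ[ℝ] A where
  toFun := C.cas
  map_add' f h := by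
    simp only [cas, lap_add, curv_add, smul_add]
    abel
  map_smul' c f := by
    simp only [cas, lap_smul, curv_smul, smul_sub, RingHom.id_apply]
    rw [smul_comm]

theorem casL_apply (f : A) : C.casL f = C.cas f := rfl

theorem cas_add (f h : A) : C.cas (f + h) = C.cas f + C.cas h := map_add C.casL f h

theorem cas_sub (f h : A) : C.cas (f - h) = C.cas f - C.cas h := map_sub C.casL f h

theorem cas_neg (f : A) : C.cas (-f) = -C.cas f := map_neg C.casL f

theorem cas_smul (c : ℝ) (f : A) : C.cas (c • f) = c • C.cas f := map_smul C.casL c f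

theorem cas_zero : C.cas 0 = 0 := map_zero C.casL

theorem cas_sum {κ : Type*} (s : Finset κ) (f : κ → A) :
    C.cas (∑ k ∈ s, f k) = ∑ k ∈ s, C.cas (f k) := map_sum C.casL f s

/-! ### commutation with the horizontal derivations -/

/-- `[∑ H_i², H_m]` -/
theorem H_lap (hP : C.Par) (m : Fin n) (f : A) :
    C.H m (C.lap f) = C.lap (C.H m f) + (1 / 2 : ℝ) • ∑ i, ∑ k, ∑ l,
      C.R m i k l * (C.V k l (C.H i f) + C.H i (C.V k l f)) := by
  unfold lap
  rw [map_sum, Finset.smul_sum, ← Finset.sum_add_distrib]
  refine Finset.sum_congr rfl fun i _ => ?_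
  rw [HH m i (C.H i f), HH m i f, map_add, (C.H i).map_smul, add_assoc, ← smul_add, map_sum,
    ← Finset.sum_add_distrib]
  congr 2
  refine Finset.sum_congr rfl fun k _ => ?_
  rw [map_sum, ← Finset.sum_add_distrib]
  refine Finset.sum_congr rfl fun l _ => ?_
  rw [Derivation.leibniz, hP i m i k l]
  simp only [smul_eq_mul, mul_zero, add_zero]
  ring

/-- `[∑ R_ijkl V_ij V_kl, H_m]` -/
theorem H_curv (hP : C.Par) (m : Fin n) (f : A) :
    C.H m (C.curv f) = C.curv (C.H m f) + (2 : ℝ) • ∑ i, ∑ k, ∑ l,
      C.R m i k l * (C.V k l (C.H i f) + C.H i (C.V k l f)) := by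
  have h1 : ∀ i j k l, C.H m (C.R i j k l * C.V i j (C.V k l f)) =
      C.R i j k l * C.V i j (C.V k l (C.H m f)) - C.R i j k l *
        ((if l = m then C.V i j (C.H k f) else 0) - (if k = m then C.V i j (C.H l f) else 0)
        + ((if j = m then C.H i (C.V k l f) else 0) - (if i = m then C.H j (C.V k l f) else 0))) := by
    intro i j k l
    rw [Derivation.leibniz, hP m i j k l, VH k l m f, map_add, VH i j m (C.V k l f), ac, ac, map_sub]
    simp only [smul_eq_mul, mul_zero, add_zero, apply_ite (C.V i j), map_zero]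
    ring
  unfold curv
  simp only [map_sum, h1, Finset.sum_sub_distrib]
  rw [sub_eq_add_neg]
  congr 1
  have e1 : ∑ i, ∑ j, ∑ k, ∑ l, C.R i j k l *
        ((if l = m then C.V i j (C.H k f) else 0) - (if k = m then C.V i j (C.H l f) else 0)
        + ((if j = m then C.H i (C.V k l f) else 0) - (if i = m then C.H j (C.V k l f) else 0))) =
      ∑ i, ∑ j, ∑ k, C.R i j k m * C.V i j (C.H k f) - ∑ i, ∑ j, ∑ l, C.R i j m l * C.V i j (C.H l f)
      + (∑ i, ∑ k, ∑ l, C.R i m k l * C.H i (C.V k l f)
        - ∑ j, ∑ k, ∑ l, C.R m j k l * C.H j (C.V k l f)) := by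
    simp only [mul_add, mul_sub, mul_ite, mul_zero, Finset.sum_add_distrib,
      Finset.sum_sub_distrib, Finset.sum_ite_eq', Finset.mem_univ, if_true]
    congr 2
    · refine Finset.sum_congr rfl fun i _ => ?_
      refine Finset.sum_congr rfl fun j _ => ?_
      rw [Finset.sum_comm]
      simp only [Finset.sum_ite_eq', Finset.mem_univ, if_true]
    · refine Finset.sum_congr rfl fun i _ => ?_
      rw [Finset.sum_comm]
      refine Finset.sum_congr rfl fun k _ => ?_
      rw [Finset.sum_comm]
      simp only [Finset.sum_ite_eq', Finset.mem_univ, if_true]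
    · rw [Finset.sum_comm]
      refine Finset.sum_congr rfl fun j _ => ?_
      rw [Finset.sum_comm]
      refine Finset.sum_congr rfl fun k _ => ?_
      rw [Finset.sum_comm]
      simp only [Finset.sum_ite_eq', Finset.mem_univ, if_true]
  rw [e1]
  have e2 : ∑ i, ∑ j, ∑ k, C.R i j k m * C.V i j (C.H k f) =
      -∑ i, ∑ k, ∑ l, C.R m i k l * C.V k l (C.H i f) := by
    rw [← Finset.sum_neg_distrib]
    have h2 : ∑ i, ∑ j, ∑ k, C.R i j k m * C.V i j (C.H k f) =
        ∑ k, ∑ i, ∑ j, C.R i j k m * C.V i j (C.H k f) := by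
      calc ∑ i, ∑ j, ∑ k, C.R i j k m * C.V i j (C.H k f)
          = ∑ i, ∑ k, ∑ j, C.R i j k m * C.V i j (C.H k f) :=
            Finset.sum_congr rfl fun i _ => Finset.sum_comm
        _ = _ := Finset.sum_comm
    rw [h2]
    refine Finset.sum_congr rfl fun i _ => ?_
    rw [← Finset.sum_neg_distrib]
    refine Finset.sum_congr rfl fun k _ => ?_
    rw [← Finset.sum_neg_distrib]
    refine Finset.sum_congr rfl fun l _ => ?_
    rw [C.R_pair k l i m, C.R_anti i m k l]
    ring
  have e3 : ∑ i, ∑ j, ∑ l, C.R i j m l * C.V i j (C.H l f) =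
      -∑ i, ∑ j, ∑ k, C.R i j k m * C.V i j (C.H k f) := by
    simp only [← Finset.sum_neg_distrib]
    refine Finset.sum_congr rfl fun i _ => Finset.sum_congr rfl fun j _ =>
      Finset.sum_congr rfl fun l _ => ?_
    rw [C.R_skew i j m l]
    ring
  have e4 : ∑ i, ∑ k, ∑ l, C.R i m k l * C.H i (C.V k l f) =
      -∑ j, ∑ k, ∑ l, C.R m j k l * C.H j (C.V k l f) := by
    simp only [← Finset.sum_neg_distrib]
    refine Finset.sum_congr rfl fun i _ => Finset.sum_congr rfl fun j _ =>
      Finset.sum_congr rfl fun l _ => ?_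
    rw [C.R_anti i m j l]
    ring
  rw [e3, e2, e4]
  have e5 : ∑ i, ∑ k, ∑ l, C.R m i k l * (C.V k l (C.H i f) + C.H i (C.V k l f)) =
      ∑ i, ∑ k, ∑ l, C.R m i k l * C.V k l (C.H i f)
      + ∑ i, ∑ k, ∑ l, C.R m i k l * C.H i (C.V k l f) := by
    simp only [mul_add, Finset.sum_add_distrib]
  rw [e5, two_smul]
  abel

/-- **the Casimir operator commutes with the horizontal derivations** -/
theorem H_cas (hP : C.Par) (m : Fin n) (f : A) : C.H m (C.cas f) = C.cas (C.H m f) := by
  unfold cas
  rw [map_sub, (C.H m).map_smul, H_lap hP, H_curv hP, smul_add, smul_smul]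
  norm_num

/-! ### commutation with the rotations -/

/-- `∑ H_i²` commutes with the rotations -/
theorem V_lap (a b : Fin n) (f : A) : C.V a b (C.lap f) = C.lap (C.V a b f) := by
  unfold lap
  have h1 : ∀ i, C.V a b (C.H i (C.H i f)) = C.H i (C.H i (C.V a b f)) +
      (ac a b (fun j => C.H j (C.H i f)) i + ac a b (fun j => C.H i (C.H j f)) i) := by
    intro i
    rw [VH a b i (C.H i f), VH a b i f, map_add, ac_map]
    ring
  simp only [map_sum, h1]
  rw [Finset.sum_add_distrib, sum_ac_ac a b (fun j i => C.H j (C.H i f)), add_zero]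

theorem sum4_1 (F : Fin n → Fin n → Fin n → Fin n → A) (h : ∀ j k l, ∑ i, F i j k l = 0) :
    ∑ i, ∑ j, ∑ k, ∑ l, F i j k l = 0 := by
  rw [Finset.sum_comm]
  refine Finset.sum_eq_zero fun j _ => ?_
  rw [Finset.sum_comm]
  refine Finset.sum_eq_zero fun k _ => ?_
  rw [Finset.sum_comm]
  exact Finset.sum_eq_zero fun l _ => h j k l

theorem sum4_2 (F : Fin n → Fin n → Fin n → Fin n → A) (h : ∀ i k l, ∑ j, F i j k l = 0) :
    ∑ i, ∑ j, ∑ k, ∑ l, F i j k l = 0 := by
  refine Finset.sum_eq_zero fun i _ => ?_
  rw [Finset.sum_comm]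
  refine Finset.sum_eq_zero fun k _ => ?_
  rw [Finset.sum_comm]
  exact Finset.sum_eq_zero fun l _ => h i k l

theorem sum4_3 (F : Fin n → Fin n → Fin n → Fin n → A) (h : ∀ i j l, ∑ k, F i j k l = 0) :
    ∑ i, ∑ j, ∑ k, ∑ l, F i j k l = 0 := by
  refine Finset.sum_eq_zero fun i _ => Finset.sum_eq_zero fun j _ => ?_
  rw [Finset.sum_comm]
  exact Finset.sum_eq_zero fun l _ => h i j l

theorem sum4_4 (F : Fin n → Fin n → Fin n → Fin n → A) (h : ∀ i j k, ∑ l, F i j k l = 0) :
    ∑ i, ∑ j, ∑ k, ∑ l, F i j k l = 0 :=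
  Finset.sum_eq_zero fun i _ => Finset.sum_eq_zero fun j _ => Finset.sum_eq_zero fun k _ => h i j k

/-- contraction of two families with four indices -/
theorem contr4 (a b : Fin n) (T U : Fin n → Fin n → Fin n → Fin n → A) :
    ∑ i, ∑ j, ∑ k, ∑ l, ((ac a b (fun i => T i j k l) i + ac a b (fun j => T i j k l) j
      + ac a b (fun k => T i j k l) k + ac a b (fun l => T i j k l) l) * U i j k l
      + T i j k l * (ac a b (fun i => U i j k l) i + ac a b (fun j => U i j k l) j
      + ac a b (fun k => U i j k l) k + ac a b (fun l => U i j k l) l)) = 0 := by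
  have e1 := sum4_1 (fun i j k l => ac a b (fun i => T i j k l) i * U i j k l
    + T i j k l * ac a b (fun i => U i j k l) i) fun j k l =>
      sum_ac_mul a b (fun i => T i j k l) (fun i => U i j k l)
  have e2 := sum4_2 (fun i j k l => ac a b (fun j => T i j k l) j * U i j k l
    + T i j k l * ac a b (fun j => U i j k l) j) fun i k l =>
      sum_ac_mul a b (fun j => T i j k l) (fun j => U i j k l)
  have e3 := sum4_3 (fun i j k l => ac a b (fun k => T i j k l) k * U i j k l
    + T i j k l * ac a b (fun k => U i j k l) k) fun i j l =>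
      sum_ac_mul a b (fun k => T i j k l) (fun k => U i j k l)
  have e4 := sum4_4 (fun i j k l => ac a b (fun l => T i j k l) l * U i j k l
    + T i j k l * ac a b (fun l => U i j k l) l) fun i j k =>
      sum_ac_mul a b (fun l => T i j k l) (fun l => U i j k l)
  have e5 : ∀ x y z w : A, x = 0 → y = 0 → z = 0 → w = 0 → x + y + z + w = 0 := by
    rintro x y z w rfl rfl rfl rfl
    simp
  refine Eq.trans ?_ (e5 _ _ _ _ e1 e2 e3 e4)
  simp only [← Finset.sum_add_distrib]
  refine Finset.sum_congr rfl fun i _ => Finset.sum_congr rfl fun j _ =>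
      Finset.sum_congr rfl fun k _ => Finset.sum_congr rfl fun l _ => ?_
  ring

/-- `∑ R_ijkl V_ij V_kl` commutes with the rotations -/
theorem V_curv (a b : Fin n) (f : A) : C.V a b (C.curv f) = C.curv (C.V a b f) := by
  set U : Fin n → Fin n → Fin n → Fin n → A := fun i j k l => C.V i j (C.V k l f) with hU
  have h1 : ∀ i j k l, C.V a b (U i j k l) = C.V i j (C.V k l (C.V a b f)) +
      (ac a b (fun i => U i j k l) i + ac a b (fun j => U i j k l) j
      + ac a b (fun k => U i j k l) k + ac a b (fun l => U i j k l) l) := by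
    intro i j k l
    simp only [hU]
    rw [VV a b i j (C.V k l f), VV a b k l f]
    simp only [map_add, ac_map]
    ring
  have h2 : ∀ i j k l, C.V a b (C.R i j k l * U i j k l) =
      C.R i j k l * C.V i j (C.V k l (C.V a b f)) +
      ((ac a b (fun i => C.R i j k l) i + ac a b (fun j => C.R i j k l) j
      + ac a b (fun k => C.R i j k l) k + ac a b (fun l => C.R i j k l) l) * U i j k l
      + C.R i j k l * (ac a b (fun i => U i j k l) i + ac a b (fun j => U i j k l) j
      + ac a b (fun k => U i j k l) k + ac a b (fun l => U i j k l) l)) := by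
    intro i j k l
    rw [Derivation.leibniz, C.VR, h1]
    simp only [smul_eq_mul]
    ring
  have h3 : C.V a b (C.curv f) = ∑ i, ∑ j, ∑ k, ∑ l, C.V a b (C.R i j k l * U i j k l) := by
    unfold curv
    simp only [map_sum, hU]
  rw [h3]
  simp only [h2]
  unfold curv
  rw [← sub_eq_zero]
  simp only [← Finset.sum_sub_distrib, add_sub_cancel_left]
  exact contr4 a b C.R U

/-- **the Casimir operator commutes with the rotations** -/
theorem V_cas (a b : Fin n) (f : A) : C.V a b (C.cas f) = C.cas (C.V a b f) := by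
  unfold cas
  rw [map_sub, Derivation.map_smul, V_lap, V_curv]

end FrCalc

end Vale.Agent.P207.H442
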