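import Vale.Agent.P207.H442.C1
import Vale.Agent.P207.H340.QMat
import Vale.Agent.P207.H469.KAvg

/-!
# P207 / H442: the inequality for tensors of type (2,2) on quaternionic hyperbolic manifolds

`C` is a calculus with parallel curvature whose curvature tensor has at every point the
quaternionic form (`Qp`).  For a symmetric, trace free, divergence free tensor `h` of type `(2,2)`
(`Ro h = -4 h`) with `cas h = -λ h` we have `λ ≥ 4 n - 32`, and
`(n+4) (15 |X f|² - ⟨Δ_2 X f, X f⟩) ≤ 4 (λ + 32 - 4 n) |f|²`, `f = h_00`.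
-/

set_option linter.unusedSectionVars false

noncomputable section

namespace Vale.Agent.P207.H442

open Finset Vale.Agent.P207.H340

/-! ### pointwise -/

section Pt

variable {n : ℕ} {w : Fin 3 → Matrix (Fin n) (Fin n) ℝ} {R : Fin n → Fin n → Fin n → Fin n → ℝ}
  {h : Matrix (Fin n) (Fin n) ℝ}

theorem typ_of_ro (hR : IsQR w R) (hw : Qt w) (hs : ∀ i j, h j i = h i j)
    (ht : ∑ i, h i i = 0) (hro : ∀ i k, ∑ p, ∑ c, R i p k c * h p c = -4 * h i k) : H22 w h := by
  have hT : h.transpose = h := by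
    ext i j
    rw [Matrix.transpose_apply, hs]
  have htr : Matrix.trace h = 0 := ht
  have h0 : ∀ a : Fin 3, ∑ p, ∑ q, w a p q * h p q = 0 := by
    intro a
    rw [sum_mul_eq, hw.tr]
    refine trace_skew_symm ?_ hT
    rw [Matrix.transpose_neg, hw.tr]
  refine ⟨hs, ht, ?_⟩
  ext i k
  have h1 := RX hR h i k
  have h2 : ∑ p, ∑ c, R i p c k * h p c = 4 * h i k := by
    have h3 : ∀ p c, R i p c k * h p c = -(R i p k c * h p c) := by
      intro p c
      rw [R_skew hw hR i p k c]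
      ring
    simp only [h3, sum_neg_distrib, hro]
    ring
  rw [h2, hT, htr] at h1
  simp only [h0, zero_mul, sum_const_zero, sub_zero, neg_zero, zero_add] at h1
  rw [Matrix.sum_apply]
  rw [hs i k] at h1
  linarith

theorem Om_sq (hw : Qt w) {ε : ℝ} (hq : Quat w ε) (i j k l : Fin n) :
    ∑ p, ∑ q, Om w i p k q * Om w p j q l =
      3 * ((if i = j then (1 : ℝ) else 0) * (if k = l then (1 : ℝ) else 0)) +
        2 * Om w i j k l := by
  rw [← Quat.dbl hw hq i j k l]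
  have e1 : ∀ p q, Om w i p k q * Om w p j q l =
      ∑ b, ∑ c, (w c i p * w b p j) * (w c k q * w b q l) := by
    intro p q
    unfold H340.Om
    rw [sum_mul_sum, sum_comm]
    refine sum_congr rfl fun b _ => sum_congr rfl fun c _ => ?_
    ring
  have e2 : ∀ b c : Fin 3, (w c * w b) i j * (w c * w b) k l =
      ∑ p, ∑ q, (w c i p * w b p j) * (w c k q * w b q l) := by
    intro b c
    rw [Matrix.mul_apply, Matrix.mul_apply, sum_mul_sum]
  simp only [e1, e2]
  calc ∑ p, ∑ q, ∑ b, ∑ c, (w c i p * w b p j) * (w c k q * w b q l)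
      = ∑ p, ∑ b, ∑ q, ∑ c, (w c i p * w b p j) * (w c k q * w b q l) :=
        sum_congr rfl fun p _ => sum_comm
    _ = ∑ b, ∑ p, ∑ q, ∑ c, (w c i p * w b p j) * (w c k q * w b q l) := sum_comm
    _ = ∑ b, ∑ p, ∑ c, ∑ q, (w c i p * w b p j) * (w c k q * w b q l) :=
        sum_congr rfl fun b _ => sum_congr rfl fun p _ => sum_comm
    _ = ∑ b, ∑ c, ∑ p, ∑ q, (w c i p * w b p j) * (w c k q * w b q l) :=
        sum_congr rfl fun b _ => sum_comm

theorem Om_proj (hw : Qt w) (i j k l : Fin n) :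
    ∑ p, ∑ q, Om w i j p q * Om w p q k l = (n : ℝ) * Om w i j k l := by
  have e1 : ∀ p q, Om w i j p q * Om w p q k l =
      ∑ b, ∑ c, (w c i j * w b k l) * (w c p q * w b p q) := by
    intro p q
    unfold H340.Om
    rw [sum_mul_sum, sum_comm]
    refine sum_congr rfl fun b _ => sum_congr rfl fun c _ => ?_
    ring
  simp only [e1]
  calc ∑ p, ∑ q, ∑ b, ∑ c, (w c i j * w b k l) * (w c p q * w b p q)
      = ∑ p, ∑ b, ∑ q, ∑ c, (w c i j * w b k l) * (w c p q * w b p q) :=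
        sum_congr rfl fun p _ => sum_comm
    _ = ∑ b, ∑ p, ∑ q, ∑ c, (w c i j * w b k l) * (w c p q * w b p q) := sum_comm
    _ = ∑ b, ∑ p, ∑ c, ∑ q, (w c i j * w b k l) * (w c p q * w b p q) :=
        sum_congr rfl fun b _ => sum_congr rfl fun p _ => sum_comm
    _ = ∑ b, ∑ c, ∑ p, ∑ q, (w c i j * w b k l) * (w c p q * w b p q) :=
        sum_congr rfl fun b _ => sum_comm
    _ = ∑ b, ∑ c, (w c i j * w b k l) * (if c = b then (n : ℝ) else 0) := by
        refine sum_congr rfl fun b _ => sum_congr rfl fun c _ => ?_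
        rw [← hw.inner c b]
        simp only [mul_sum]
    _ = _ := by
        simp only [mul_ite, mul_zero, sum_ite_eq', mem_univ, if_true]
        unfold H340.Om
        rw [mul_sum]
        exact sum_congr rfl fun b _ => by ring

theorem Om_tr (hw : Qt w) (o : Fin n) : ∑ j, Om w o j o j = 3 := by
  unfold H340.Om
  rw [sum_comm]
  have e1 : ∀ a : Fin 3, ∑ j, w a o j * w a o j = 1 := by
    intro a
    have h1 := congrFun (congrFun (hw.sq a) o) o
    rw [Matrix.mul_apply, Matrix.neg_apply, Matrix.one_apply_eq] at h1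
    have h2 : ∑ j, w a o j * w a j o = - ∑ j, w a o j * w a o j := by
      rw [← sum_neg_distrib]
      refine sum_congr rfl fun j _ => ?_
      rw [hw.skew a o j]
      ring
    linarith
  simp only [e1]
  simp

end Pt

/-! ### the calculus -/

namespace FrCalc

variable {n : ℕ} {A : Type*} [CommRing A] [Algebra ℝ A] {C : FrCalc n A} {I : A →ₗ[ℝ] ℝ}
  {ι : Type*}

/-- the curvature has the quaternionic form at every point -/
structure Qp (C : FrCalc n A) (E : ι → A →ₐ[ℝ] ℝ) : Prop where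
  ext : ∀ a b : A, (∀ f, E f a = E f b) → a = b
  quat : ∀ f, ∃ (w : Fin 3 → Matrix (Fin n) (Fin n) ℝ) (ε : ℝ), Qt w ∧ Quat w ε ∧
    IsQR w (fun i j k l => E f (C.R i j k l))

/-- `Ω` as a polynomial in the curvature -/
def OmC (C : FrCalc n A) (i j k l : Fin n) : A :=
  (1 / (4 * ((n : ℝ) - 4))) • ((∑ p, ∑ q, C.R i j p q * C.R p q k l) - (8 : ℝ) • C.R i j k l)

theorem E_OmC (C : FrCalc n A) (hn : n ≠ 4) (E : A →ₐ[ℝ] ℝ)
    {w : Fin 3 → Matrix (Fin n) (Fin n) ℝ} {ε : ℝ} (hw : Qt w) (hq : Quat w ε)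
    (hR : IsQR w (fun i j k l => E (C.R i j k l))) (i j k l : Fin n) :
    E (C.OmC i j k l) = Om w i j k l := by
  have h1 := Om_eq hw hq hR i j k l
  have h4 : (n : ℝ) - 4 ≠ 0 := by
    intro h
    apply hn
    have h5 : (n : ℝ) = 4 := by linarith
    exact_mod_cast h5
  unfold OmC
  rw [map_smul, map_sub, map_smul]
  simp only [map_sum, map_mul, smul_eq_mul]
  rw [← h1]
  field_simp

theorem T4_RR (C : FrCalc n A) : C.T4 (fun i j k l => ∑ p, ∑ q, C.R i j p q * C.R p q k l) := by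
  intro a b i j k l
  have h1 : ∀ p q, C.V a b (C.R i j p q * C.R p q k l) =
      (ac a b (fun i => C.R i j p q) i * C.R p q k l + ac a b (fun j => C.R i j p q) j * C.R p q k l
      + C.R i j p q * ac a b (fun k => C.R p q k l) k
      + C.R i j p q * ac a b (fun l => C.R p q k l) l) +
      ((ac a b (fun p => C.R i j p q) p * C.R p q k l +
        C.R i j p q * ac a b (fun p => C.R p q k l) p) +
      (ac a b (fun q => C.R i j p q) q * C.R p q k l +
        C.R i j p q * ac a b (fun q => C.R p q k l) q)) := by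
    intro p q
    rw [Derivation.leibniz, smul_eq_mul, smul_eq_mul, C.VR, C.VR]
    ring
  have h2 : ∑ p, ∑ q, ac a b (fun p => C.R i j p q) p * C.R p q k l +
      ∑ p, ∑ q, C.R i j p q * ac a b (fun p => C.R p q k l) p = 0 := by
    simp only [← sum_add_distrib]
    rw [sum_comm]
    exact sum_eq_zero fun q _ => sum_ac_mul a b (fun p => C.R i j p q) (fun p => C.R p q k l)
  have h3 : ∑ p, ∑ q, ac a b (fun q => C.R i j p q) q * C.R p q k l +
      ∑ p, ∑ q, C.R i j p q * ac a b (fun q => C.R p q k l) q = 0 := by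
    simp only [← sum_add_distrib]
    exact sum_eq_zero fun p _ => sum_ac_mul a b (fun q => C.R i j p q) (fun q => C.R p q k l)
  have h4 : C.V a b (∑ p, ∑ q, C.R i j p q * C.R p q k l) =
      ∑ p, ∑ q, C.V a b (C.R i j p q * C.R p q k l) := by
    simp only [map_sum]
  rw [h4]
  simp only [h1, sum_add_distrib]
  rw [h2, h3, add_zero, add_zero]
  congr 1
  · congr 1
    · congr 1
      · rw [ac_sum Finset.univ a b (fun p i => ∑ q, C.R i j p q * C.R p q k l)]
        refine sum_congr rfl fun p _ => ?_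
        rw [ac_sum Finset.univ a b (fun q i => C.R i j p q * C.R p q k l)]
        exact sum_congr rfl fun q _ =>
          (ac_mul_right a b (C.R p q k l) (fun i => C.R i j p q) i).symm
      · rw [ac_sum Finset.univ a b (fun p j => ∑ q, C.R i j p q * C.R p q k l)]
        refine sum_congr rfl fun p _ => ?_
        rw [ac_sum Finset.univ a b (fun q j => C.R i j p q * C.R p q k l)]
        exact sum_congr rfl fun q _ =>
          (ac_mul_right a b (C.R p q k l) (fun j => C.R i j p q) j).symm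
    · rw [ac_sum Finset.univ a b (fun p k => ∑ q, C.R i j p q * C.R p q k l)]
      refine sum_congr rfl fun p _ => ?_
      rw [ac_sum Finset.univ a b (fun q k => C.R i j p q * C.R p q k l)]
      exact sum_congr rfl fun q _ => (ac_mul_left a b (C.R i j p q) (fun k => C.R p q k l) k).symm
  · rw [ac_sum Finset.univ a b (fun p l => ∑ q, C.R i j p q * C.R p q k l)]
    refine sum_congr rfl fun p _ => ?_
    rw [ac_sum Finset.univ a b (fun q l => C.R i j p q * C.R p q k l)]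
    exact sum_congr rfl fun q _ => (ac_mul_left a b (C.R i j p q) (fun l => C.R p q k l) l).symm

theorem T4_OmC (C : FrCalc n A) : C.T4 C.OmC := by
  intro a b i j k l
  unfold OmC
  rw [Derivation.map_smul, map_sub, Derivation.map_smul, T4_RR C a b, C.VR]
  simp only [ac_sub, ac_smul]
  module

variable {E : ι → A →ₐ[ℝ] ℝ}

theorem Qp.qform (hQ : C.Qp E) (hP : C.Par) (hn : n ≠ 4) : C.QForm C.OmC where
  par i j k l := by
    unfold OmC
    refine IsPar.smul _ (IsPar.sub ?_ (IsPar.smul _ (hP.isPar i j k l)))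
    exact IsPar.sum fun p _ => IsPar.sum fun q _ => (hP.isPar i j p q).mul (hP.isPar p q k l)
  anti i j k l := by
    refine hQ.ext _ _ fun f => ?_
    obtain ⟨w, ε, hw, hq, hR⟩ := hQ.quat f
    rw [map_neg, E_OmC C hn (E f) hw hq hR, E_OmC C hn (E f) hw hq hR, Om_anti hw]
  pair i j k l := by
    refine hQ.ext _ _ fun f => ?_
    obtain ⟨w, ε, hw, hq, hR⟩ := hQ.quat f
    rw [E_OmC C hn (E f) hw hq hR, E_OmC C hn (E f) hw hq hR, Om_pair]
  sq i j k l := by
    refine hQ.ext _ _ fun f => ?_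
    obtain ⟨w, ε, hw, hq, hR⟩ := hQ.quat f
    simp only [map_sum, map_mul, map_add, map_ofNat, E_OmC C hn (E f) hw hq hR, apply_ite (E f),
      map_one, map_zero]
    exact Om_sq hw hq i j k l
  proj i j k l := by
    refine hQ.ext _ _ fun f => ?_
    obtain ⟨w, ε, hw, hq, hR⟩ := hQ.quat f
    simp only [map_sum, map_mul, map_smul, smul_eq_mul, E_OmC C hn (E f) hw hq hR]
    exact Om_proj hw i j k l

theorem Qp.ric (hQ : C.Qp E) (i j : Fin n) :
    C.Ric i j = if i = j then -(((n : ℝ) + 8) • (1 : A)) else 0 := by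
  refine hQ.ext _ _ fun f => ?_
  obtain ⟨w, ε, hw, hq, hR⟩ := hQ.quat f
  unfold Ric
  simp only [map_sum, apply_ite (E f), map_neg, map_smul, map_one, map_zero, smul_eq_mul, mul_one]
  rw [ric_mid hw hR i j]
  split_ifs <;> simp

variable {h : Fin n → Fin n → A}

theorem Qp.h22 (hQ : C.Qp E) (hs : ∀ i j, h i j = h j i) (ht : ∑ i, h i i = 0)
    (hro : ∀ i k, ∑ p, ∑ c, C.R i p k c * h p c = -((4 : ℝ) • h i k)) (f : ι)
    {w : Fin 3 → Matrix (Fin n) (Fin n) ℝ} (hw : Qt w)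
    (hR : IsQR w (fun i j k l => E f (C.R i j k l))) :
    H22 w (Matrix.of fun i j => E f (h i j)) := by
  refine typ_of_ro hR hw (fun i j => ?_) ?_ (fun i k => ?_)
  · simp only [Matrix.of_apply]
    rw [hs]
  · have h1 := congrArg (E f) ht
    rw [map_sum, map_zero] at h1
    exact h1
  · have h1 := congrArg (E f) (hro i k)
    simp only [map_sum, map_mul, map_neg, map_smul, smul_eq_mul] at h1
    simp only [Matrix.of_apply]
    rw [h1]
    ring

/-- the condition on the type, with `Ω` -/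
theorem Qp.typ (hQ : C.Qp E) (hn : n ≠ 4) (hs : ∀ i j, h i j = h j i) (ht : ∑ i, h i i = 0)
    (hro : ∀ i k, ∑ p, ∑ c, C.R i p k c * h p c = -((4 : ℝ) • h i k)) (i j : Fin n) :
    ∑ p, ∑ q, C.OmC i p j q * h p q = - h i j := by
  refine hQ.ext _ _ fun f => ?_
  obtain ⟨w, ε, hw, hq, hR⟩ := hQ.quat f
  have hH := hQ.h22 hs ht hro f hw hR
  simp only [map_sum, map_mul, map_neg, E_OmC C hn (E f) hw hq hR]
  have h1 := congrFun (congrFun hH.typ i) j
  rw [Matrix.sum_apply] at h1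
  simp only [conj_apply, Matrix.of_apply] at h1
  rw [← h1, ← sum_neg_distrib]
  unfold H340.Om
  simp only [sum_mul]
  rw [H340.sum3]
  refine sum_congr rfl fun a _ => ?_
  rw [← sum_neg_distrib]
  refine sum_congr rfl fun p _ => ?_
  rw [← sum_neg_distrib]
  refine sum_congr rfl fun q _ => ?_
  rw [hw.skew a q j]
  ring

theorem Qp.w1 (hQ : C.Qp E) (hs : ∀ i j, h i j = h j i) (ht : ∑ i, h i i = 0)
    (hro : ∀ i k, ∑ p, ∑ c, C.R i p k c * h p c = -((4 : ℝ) • h i k)) :
    C.W1 h = (-((n : ℝ) + 12)) • sq2 h := by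
  refine hQ.ext _ _ fun f => ?_
  obtain ⟨w, ε, hw, hq, hR⟩ := hQ.quat f
  have hH := hQ.h22 hs ht hro f hw hR
  have h1 := H340.W1 hw hR hH
  unfold FrCalc.W1 cu sq2
  simp only [map_sum, map_mul, map_add, map_smul, smul_eq_mul]
  simp only [Matrix.of_apply] at h1
  refine Eq.trans ?_ h1
  refine sum_congr rfl fun i _ => sum_congr rfl fun j _ => ?_
  refine Eq.trans ?_ sum_comm
  refine sum_congr rfl fun k _ => ?_
  rw [mul_sum]

theorem sum_ipjq (F : Fin n → Fin n → Fin n → Fin n → Fin n → ℝ) :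
    ∑ i, ∑ p, ∑ j, ∑ q, ∑ k, F i j k p q = ∑ i, ∑ j, ∑ k, ∑ p, ∑ q, F i j k p q := by
  refine sum_congr rfl fun i _ => ?_
  calc ∑ p, ∑ j, ∑ q, ∑ k, F i j k p q = ∑ j, ∑ p, ∑ q, ∑ k, F i j k p q := sum_comm
    _ = ∑ j, ∑ p, ∑ k, ∑ q, F i j k p q :=
        sum_congr rfl fun j _ => sum_congr rfl fun p _ => sum_comm
    _ = ∑ j, ∑ k, ∑ p, ∑ q, F i j k p q := sum_congr rfl fun j _ => sum_comm

theorem sum_ijpq (F : Fin n → Fin n → Fin n → Fin n → Fin n → ℝ) :
    ∑ i, ∑ j, ∑ p, ∑ q, ∑ k, F i j k p q = ∑ i, ∑ j, ∑ k, ∑ p, ∑ q, F i j k p q := by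
  refine sum_congr rfl fun i _ => sum_congr rfl fun j _ => ?_
  calc ∑ p, ∑ q, ∑ k, F i j k p q = ∑ p, ∑ k, ∑ q, F i j k p q :=
        sum_congr rfl fun p _ => sum_comm
    _ = ∑ k, ∑ p, ∑ q, F i j k p q := sum_comm

theorem Qp.w2 (hQ : C.Qp E) (hn : n ≠ 4) (hs : ∀ i j, h i j = h j i) (ht : ∑ i, h i i = 0)
    (hro : ∀ i k, ∑ p, ∑ c, C.R i p k c * h p c = -((4 : ℝ) • h i k)) :
    C.W2 C.OmC h = (8 * (n : ℝ)) • sq2 h := by
  refine hQ.ext _ _ fun f => ?_
  obtain ⟨w, ε, hw, hq, hR⟩ := hQ.quat f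
  have hH := hQ.h22 hs ht hro f hw hR
  have h1 := H340.W2 hw hR hH
  unfold FrCalc.W2 cu sq2
  simp only [map_sum, map_mul, map_add, map_smul, smul_eq_mul, E_OmC C hn (E f) hw hq hR]
  simp only [Matrix.of_apply] at h1
  refine Eq.trans ?_ h1
  refine Eq.trans ?_ (sum_ipjq _).symm
  refine sum_congr rfl fun i _ => sum_congr rfl fun j _ => sum_congr rfl fun k _ =>
    sum_congr rfl fun p _ => sum_congr rfl fun q _ => ?_
  rw [mul_sum, mul_sum]
  exact sum_congr rfl fun c _ => by ring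

theorem Qp.w3 (hQ : C.Qp E) (hn : n ≠ 4) (hs : ∀ i j, h i j = h j i) (ht : ∑ i, h i i = 0)
    (hro : ∀ i k, ∑ p, ∑ c, C.R i p k c * h p c = -((4 : ℝ) • h i k)) :
    C.W3 C.OmC h = (3 * (n : ℝ) + 4) • sq2 h := by
  refine hQ.ext _ _ fun f => ?_
  obtain ⟨w, ε, hw, hq, hR⟩ := hQ.quat f
  have hH := hQ.h22 hs ht hro f hw hR
  have h1 := H340.W3 hw hR hH
  unfold FrCalc.W3 cu sq2
  simp only [map_sum, map_mul, map_add, map_smul, smul_eq_mul, E_OmC C hn (E f) hw hq hR]
  simp only [Matrix.of_apply] at h1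
  refine Eq.trans ?_ h1
  refine Eq.trans ?_ (sum_ijpq _).symm
  refine sum_congr rfl fun i _ => sum_congr rfl fun j _ => sum_congr rfl fun k _ =>
    sum_congr rfl fun p _ => sum_congr rfl fun q _ => ?_
  rw [mul_sum, mul_sum]
  exact sum_congr rfl fun c _ => by ring

/-- the rough Laplacian -/
theorem Qp.lap (hQ : C.Qp E) (hh : C.T2 h) (hs : ∀ i j, h i j = h j i)
    (hro : ∀ i k, ∑ p, ∑ c, C.R i p k c * h p c = -((4 : ℝ) • h i k)) {lam : ℝ}
    (hcas : ∀ i j, C.cas (h i j) = -(lam • h i j)) (i j : Fin n) :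
    C.lap (h i j) = -((lam + 2 * n + 24) • h i j) := by
  have h1 := hh.cas_symm hs i j
  rw [hcas] at h1
  have h2 : ∑ a, (C.Ric a i * h a j + C.Ric a j * h a i) = -((2 * ((n : ℝ) + 8)) • h i j) := by
    simp only [hQ.ric, ite_mul, zero_mul, neg_mul, smul_mul_assoc, one_mul, sum_add_distrib,
      sum_ite_eq', mem_univ, if_true]
    rw [hs j i]
    module
  have h3 : ∑ a, ∑ c, C.R a i c j * h a c = -((4 : ℝ) • h i j) := by
    rw [← hro i j]
    refine sum_congr rfl fun a _ => sum_congr rfl fun c _ => ?_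
    rw [C.R_anti a i c j, C.R_skew i a c j, neg_neg]
  rw [h2, h3] at h1
  have h4 : C.lap (h i j) = -(lam • h i j) + (-((2 * ((n : ℝ) + 8)) • h i j) +
      (2 : ℝ) • -((4 : ℝ) • h i j)) := by
    rw [h1]
    abel
  rw [h4]
  module

/-- **LAM** -/
theorem Qp.lam_ge (hQ : C.Qp E) (hP : C.Par) (hI : C.IsInt I) (hpos : ∀ x : A, 0 ≤ I (x * x))
    (hn : n ≠ 4) (hh : C.T2 h) (hs : ∀ i j, h i j = h j i) (ht : ∑ i, h i i = 0)
    (hdiv : ∀ k, ∑ i, C.H i (h i k) = 0)
    (hro : ∀ i k, ∑ p, ∑ c, C.R i p k c * h p c = -((4 : ℝ) • h i k)) {lam : ℝ}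
    (hcas : ∀ i j, C.cas (h i j) = -(lam • h i j)) :
    0 ≤ (lam + 32 - 4 * n) * I (sq2 h) := by
  have h1 := hI.weitz_le hpos hh (hQ.qform hP hn) hs hdiv (hQ.typ hn hs ht hro)
    (hQ.lap hh hs hro hcas) (hQ.w1 hs ht hro) (hQ.w2 hn hs ht hro) (hQ.w3 hn hs ht hro)
  have h2 : (lam + 2 * n + 24) - (-((n : ℝ) + 12)) - 8 * n / 2 - (3 * n + 4) =
      lam + 32 - 4 * n := by ring
  rwa [h2] at h1

/-- **C1**, scalar form -/
theorem Qp.c1 (hQ : C.Qp E) (hP : C.Par) (hI : C.IsInt I) (hpos : ∀ x : A, 0 ≤ I (x * x))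
    (hn : n ≠ 4) (hh : C.T2 h) (hs : ∀ i j, h i j = h j i) (ht : ∑ i, h i i = 0)
    (hdiv : ∀ k, ∑ i, C.H i (h i k) = 0)
    (hro : ∀ i k, ∑ p, ∑ c, C.R i p k c * h p c = -((4 : ℝ) • h i k)) {lam : ℝ}
    (hcas : ∀ i j, C.cas (h i j) = -(lam • h i j)) (o : Fin n) :
    ((n : ℝ) + 4) * (15 * I (C.H o (h o o) * C.H o (h o o)) -
      I (C.Dl2 C.OmC o (C.H o (h o o)) * C.H o (h o o))) ≤
      4 * (lam + 32 - 4 * n) * I (h o o * h o o) := by
  have hO := hQ.qform hP hn
  have hw := hI.weitz hh hO hs hdiv (hQ.typ hn hs ht hro)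
    (hQ.lap hh hs hro hcas) (hQ.w1 hs ht hro) (hQ.w2 hn hs ht hro) (hQ.w3 hn hs ht hro)
  have htrO : ∑ j, C.OmC o j o j = 3 := by
    refine hQ.ext _ _ fun f => ?_
    obtain ⟨w, ε, hw, hq, hR⟩ := hQ.quat f
    simp only [map_sum, map_ofNat, E_OmC C hn (E f) hw hq hR]
    exact Om_tr hw o
  have hc := hI.c1_eq hh hO C.T4_OmC o htrO hs hdiv ht
  have hN := N2_nonneg hI hpos hO (h := h)
  have ha := H469.avg_00 hI hh hh hs hs o
  have ht' : H469.tr2 h = 0 := ht
  have hsq : H469.ip h h = sq2 h := rfl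
  rw [ht', hsq, zero_mul, map_zero, add_zero] at ha
  have hn0 : (0 : ℝ) < n := by exact_mod_cast Fin.pos o
  have h2 : (lam + 2 * n + 24) - (-((n : ℝ) + 12)) - 8 * n / 2 - (3 * n + 4) =
      lam + 32 - 4 * n := by ring
  rw [h2] at hw
  have hc' : (n : ℝ) * (n + 2) * (n + 4) * (15 * I (C.H o (h o o) * C.H o (h o o)) -
      I (C.Dl2 C.OmC o (C.H o (h o o)) * C.H o (h o o))) ≤
      8 * ((lam + 32 - 4 * n) * I (sq2 h)) := by
    rw [hc, hw]
    have e : ip3 (fun i j k => C.ysym h i j k + M12 C.OmC (C.ysym h) i j k)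
        (fun i j k => C.ysym h i j k + M12 C.OmC (C.ysym h) i j k) =
        ip3 (fun i j k => (C.nab h i j k + C.nab h j i k + C.nab h k i j) +
        M12 C.OmC (fun i j k => C.nab h i j k + C.nab h j i k + C.nab h k i j) i j k)
        (fun i j k => (C.nab h i j k + C.nab h j i k + C.nab h k i j) +
        M12 C.OmC (fun i j k => C.nab h i j k + C.nab h j i k + C.nab h k i j) i j k) := rfl
    rw [e]
    linarith
  have h3 : I (sq2 h) = n * (n + 2) / 2 * I (h o o * h o o) := by linarith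
  rw [h3] at hc'
  have h4 : (0 : ℝ) < n * (n + 2) := by positivity
  have h5 : (n : ℝ) * (n + 2) * (((n : ℝ) + 4) * (15 * I (C.H o (h o o) * C.H o (h o o)) -
      I (C.Dl2 C.OmC o (C.H o (h o o)) * C.H o (h o o)))) ≤
      n * (n + 2) * (4 * (lam + 32 - 4 * n) * I (h o o * h o o)) := by
    linarith
  exact le_of_mul_le_mul_left h5 h4

end FrCalc

end Vale.Agent.P207.H442
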