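import Vale.Agent.P207.H442.Lam
import Vale.Agent.P207.H662.QF3

/-!
# P207 / H442: LAM and C1 in the language of the ladder algebra
-/

set_option linter.unusedSectionVars false

noncomputable section

namespace Vale.Agent.P207.H442

open Finset Vale.Agent.P207.H340 Vale.Agent.P207.H662

namespace FrCalc

variable {m : ℕ} {A : Type*} [CommRing A] [Algebra ℝ A] {C : FrCalc (m + 1) A}
  {I : A →ₗ[ℝ] ℝ} {ι : Type*} {E : ι → A →ₐ[ℝ] ℝ} {d : ℝ}

theorem Qp.Pc_eq (hQ : C.Qp E) (hn : m + 1 ≠ 4) (i j : Fin m) :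
    Pc C i j = C.OmC 0 i.succ 0 j.succ := by
  refine hQ.ext _ _ fun f => ?_
  obtain ⟨w, ε, hw, hq, hR⟩ := hQ.quat f
  have h1 : E f (C.R 0 i.succ 0 j.succ) = _ := hR 0 i.succ 0 j.succ
  have h0 : ∀ k l, Om w 0 0 k l = 0 := by
    intro k l
    unfold H340.Om
    exact sum_eq_zero fun a _ => by rw [hw.diag, zero_mul]
  have h2 : Om w i.succ 0 0 j.succ = - Om w 0 i.succ 0 j.succ := by rw [Om_anti hw]
  rw [E_OmC C hn (E f) hw hq hR]
  unfold Pc Kc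
  rw [map_smul, map_sub, smul_eq_mul]
  rw [h0, h2, if_pos rfl, if_neg (Fin.succ_ne_zero i)] at h1
  rw [h1]
  unfold kr
  simp only [Fin.succ_inj, apply_ite (E f), map_one, map_zero]
  ring

/-- the leafwise Laplacian is the one of the ladder algebra -/
theorem Qp.Dl2_eq (hQ : C.Qp E) (hn : m + 1 ≠ 4) (h : Rk1 C d) (F : A) :
    C.Dl2 C.OmC 0 F = h.sys.Dl h.sys.P F := by
  have h0 : ∀ k l, C.OmC 0 0 k l = 0 := by
    intro k l
    refine hQ.ext _ _ fun f => ?_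
    obtain ⟨w, ε, hw, hq, hR⟩ := hQ.quat f
    rw [E_OmC C hn (E f) hw hq hR, map_zero]
    unfold H340.Om
    exact sum_eq_zero fun a _ => by rw [hw.diag, zero_mul]
  rw [Sys.Dl_apply]
  unfold Dl2
  rw [Fin.sum_univ_succ]
  have e1 : ∑ j, C.OmC 0 0 0 j * C.V 0 0 (C.V j 0 F) = 0 :=
    sum_eq_zero fun j _ => by rw [h0, zero_mul]
  rw [e1, zero_add]
  congr 1
  refine sum_congr rfl fun i _ => ?_
  rw [Fin.sum_univ_succ, V_self, map_zero, mul_zero, zero_add]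
  refine sum_congr rfl fun j _ => ?_
  rw [← hQ.Pc_eq hn i j]
  rfl

variable {k : Fin (m + 1) → Fin (m + 1) → A}

/-- **C1** for the ladder algebra of the frame calculus -/
theorem Qp.c1_lad (hQ : C.Qp E) (hI : C.IsInt I) (hp : ∀ f, 0 ≤ I (f * f)) (hn : m + 1 ≠ 4)
    (h : Rk1 C d) (hk : C.T2 k) (hs : ∀ i j, k i j = k j i) (ht : ∑ i, k i i = 0)
    (hdiv : ∀ j, ∑ i, C.H i (k i j) = 0)
    (hro : ∀ i j, ∑ p, ∑ c, C.R i p j c * k p c = -((4 : ℝ) • k i j)) {lam : ℝ}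
    (hcas : ∀ i j, C.cas (k i j) = -(lam • k i j)) :
    ((m : ℝ) + 5) * (15 * (h.lad hI hp).ip ((h.lad hI hp).X (h.fB hk)) ((h.lad hI hp).X (h.fB hk))
      - (h.lad hI hp).ip ((h.lad hI hp).L2.Δ ((h.lad hI hp).X (h.fB hk)))
        ((h.lad hI hp).X (h.fB hk))) ≤
      4 * (lam + 32 - 4 * (m + 1)) * (h.lad hI hp).ip (h.fB hk) (h.fB hk) := by
  have h1 := hQ.c1 h.par hI hp hn hk hs ht hdiv hro hcas 0
  rw [hQ.Dl2_eq hn h] at h1
  have a1 : (h.lad hI hp).ip (h.fB hk) (h.fB hk) = I (fk k * fk k) := rfl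
  have a2 : (h.lad hI hp).ip ((h.lad hI hp).X (h.fB hk)) ((h.lad hI hp).X (h.fB hk)) =
      I (C.H 0 (fk k) * C.H 0 (fk k)) := rfl
  have a3 : (h.lad hI hp).ip ((h.lad hI hp).L2.Δ ((h.lad hI hp).X (h.fB hk)))
      ((h.lad hI hp).X (h.fB hk)) = I (h.sys.Dl h.sys.P (C.H 0 (fk k)) * C.H 0 (fk k)) := rfl
  rw [a1, a2, a3]
  unfold fk
  rw [Derivation.map_smul, map_smul]
  simp only [smul_mul_smul_comm, map_smul, smul_eq_mul]
  push_cast at h1
  linarith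

/-- **LAM** in the ladder language: a tensor of type `(2,2)` which is not zero -/
theorem Qp.lam_ge' (hQ : C.Qp E) (hI : C.IsInt I) (hp : ∀ f, 0 ≤ I (f * f)) (hn : m + 1 ≠ 4)
    (h : Rk1 C d) (hk : C.T2 k) (hs : ∀ i j, k i j = k j i) (ht : ∑ i, k i i = 0)
    (hdiv : ∀ j, ∑ i, C.H i (k i j) = 0)
    (hro : ∀ i j, ∑ p, ∑ c, C.R i p j c * k p c = -((4 : ℝ) • k i j)) {lam : ℝ}
    (hcas : ∀ i j, C.cas (k i j) = -(lam • k i j))
    (hne : 0 < (h.lad hI hp).ip (h.fB hk) (h.fB hk)) : 4 * ((m : ℝ) + 1) - 32 ≤ lam := by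
  have h1 := hQ.lam_ge h.par hI hp hn hk hs ht hdiv hro hcas
  have ha := H469.avg_00 hI hk hk hs hs 0
  have ht' : H469.tr2 k = 0 := ht
  have hsq : H469.ip k k = sq2 k := rfl
  rw [ht', hsq, zero_mul, map_zero, add_zero] at ha
  have a1 : (h.lad hI hp).ip (h.fB hk) (h.fB hk) = 1 / 4 * I (k 0 0 * k 0 0) := by
    change I (fk k * fk k) = _
    unfold fk
    rw [smul_mul_smul_comm, map_smul, smul_eq_mul]
    norm_num
  rw [a1] at hne
  have h2 : 0 < I (k 0 0 * k 0 0) := by linarith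
  have h3 : 0 < I (sq2 k) := by
    have h4 : (0 : ℝ) < ((m + 1 : ℕ) : ℝ) * (((m + 1 : ℕ) : ℝ) + 2) := by positivity
    have h5 := mul_pos h4 h2
    linarith
  have h6 : 0 ≤ lam + 32 - 4 * ((m + 1 : ℕ) : ℝ) := by
    by_contra hneg
    push Not at hneg
    have := mul_neg_of_neg_of_pos hneg h3
    linarith
  push_cast at h6
  linarith

end FrCalc

end Vale.Agent.P207.H442
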