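import Vale.Agent.P207.H747.Comp
import Vale.Agent.P207.H340.QMat

/-!
# P207 / H442: quaternionic structures, from linear maps to matrices
-/

open scoped RealInnerProductSpace
open Module

set_option linter.unusedSectionVars false

noncomputable section

namespace Vale.Agent.P207.H442

open Finset Vale.Agent.P207.H340 Vale.Agent.P207.H747

variable {n : ℕ}

/-- the matrix of a linear map, `⟨J e_i, e_j⟩` -/
def wm (J : Fin 3 → En n →ₗ[ℝ] En n) (a : Fin 3) : Matrix (Fin n) (Fin n) ℝ :=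
  Matrix.of fun i j => (J a (ee i)) j

theorem wm_apply (J : Fin 3 → En n →ₗ[ℝ] En n) (a : Fin 3) (i j : Fin n) :
    wm J a i j = (J a (ee i)) j := rfl

theorem wm_inner (J : Fin 3 → En n →ₗ[ℝ] En n) (a : Fin 3) (i j : Fin n) :
    wm J a i j = ⟪J a (ee i), ee j⟫ := by rw [wm_apply, inner_ee]

theorem wm_mul (J : Fin 3 → En n →ₗ[ℝ] En n) (a b : Fin 3) (i j : Fin n) :
    (wm J a * wm J b) i j = (J b (J a (ee i))) j := by
  have h1 : J b (J a (ee i)) = ∑ k, (J a (ee i)) k • J b (ee k) := by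
    nth_rewrite 1 [en_sum (J a (ee i))]
    rw [map_sum]
    exact sum_congr rfl fun k _ => map_smul _ _ _
  rw [h1, Matrix.mul_apply]
  have h2 : ∀ (s : Finset (Fin n)) (F : Fin n → En n), (∑ k ∈ s, F k) j = ∑ k ∈ s, (F k) j := by
    intro s F
    induction s using Finset.induction_on with
    | empty => simp
    | insert a s ha ih => rw [sum_insert ha, sum_insert ha, PiLp.add_apply, ih]
  rw [h2]
  exact sum_congr rfl fun k _ => by rw [PiLp.smul_apply, smul_eq_mul, wm_apply, wm_apply]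

/-- a quaternionic structure -/
structure QJ (J : Fin 3 → En n →ₗ[ℝ] En n) : Prop where
  skew : ∀ a x y, ⟪J a x, y⟫ = -⟪x, J a y⟫
  sq : ∀ a x, J a (J a x) = -x
  m01 : ∀ x, J 0 (J 1 x) = J 2 x

variable {J : Fin 3 → En n →ₗ[ℝ] En n}

theorem QJ.tr2 (h : QJ J) {a b c : Fin 3} {s : ℝ} (hm : ∀ x, J a (J b x) = s • J c x) (x : En n) :
    J b (J a x) = -(s • J c x) := by
  refine ext_inner_right ℝ fun y => ?_
  rw [h.skew, h.skew, neg_neg, hm, inner_smul_right, inner_neg_left, real_inner_smul_left,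
    h.skew]
  ring

theorem QJ.qt (h : QJ J) : Qt (wm J) := by
  have h01 : ∀ x, J 0 (J 1 x) = (1 : ℝ) • J 2 x := fun x => by rw [one_smul, h.m01]
  have h10 := h.tr2 h01
  have h02 : ∀ x, J 0 (J 2 x) = (-1 : ℝ) • J 1 x := fun x => by
    rw [← h.m01, h.sq, neg_one_smul]
  have h20 := h.tr2 h02
  have h21 : ∀ x, J 2 (J 1 x) = (-1 : ℝ) • J 0 x := fun x => by
    rw [← h.m01, h.sq, map_neg, neg_one_smul]
  have h12 := h.tr2 h21
  have key : ∀ a b : Fin 3, a ≠ b → ∀ x, J b (J a x) = -(J a (J b x)) := by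
    intro a b hab x
    fin_cases a <;> fin_cases b
    · exact absurd rfl hab
    · change J 1 (J 0 x) = -(J 0 (J 1 x))
      rw [h01, h10]
    · change J 2 (J 0 x) = -(J 0 (J 2 x))
      rw [h02, h20]
    · change J 0 (J 1 x) = -(J 1 (J 0 x))
      rw [h01, h10, neg_neg]
    · exact absurd rfl hab
    · change J 2 (J 1 x) = -(J 1 (J 2 x))
      rw [h21, h12, neg_neg]
    · change J 0 (J 2 x) = -(J 2 (J 0 x))
      rw [h02, h20, neg_neg]
    · change J 1 (J 2 x) = -(J 2 (J 1 x))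
      rw [h21, h12]
    · exact absurd rfl hab
  refine ⟨fun a i j => ?_, fun a => ?_, fun a b hab => ?_⟩
  · rw [wm_inner, wm_inner, h.skew, real_inner_comm]
  · ext i j
    rw [wm_mul, h.sq, PiLp.neg_apply, Matrix.neg_apply, Matrix.one_apply]
    simp only [PiLp.single_apply, eq_comm]
  · ext i j
    rw [wm_mul, Matrix.neg_apply, wm_mul, key a b hab, PiLp.neg_apply]

theorem QJ.quat (h : QJ J) : Quat (wm J) (-1) := by
  refine ⟨by norm_num, ?_⟩
  have h01 : ∀ x, J 0 (J 1 x) = (1 : ℝ) • J 2 x := fun x => by rw [one_smul, h.m01]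
  have h10 := h.tr2 h01
  ext i j
  rw [wm_mul, h10, one_smul, Matrix.smul_apply, PiLp.neg_apply, wm_apply, smul_eq_mul]
  ring

/-- the curvature tensor in components -/
theorem QJ.isQR (h : QJ J) {R : En n → En n → En n → En n}
    (hR : ∀ x y z, R x y z = -(⟪y, z⟫ • x - ⟪x, z⟫ • y + ∑ a, (⟪J a y, z⟫ • J a x
      - ⟪J a x, z⟫ • J a y + (2 * ⟪x, J a y⟫) • J a z))) :
    IsQR (wm J) (fun i j k l => R (ee i) (ee j) (ee k) l) := by
  intro i j k l
  have hd : ∀ p q : Fin n, ⟪(ee p : En n), ee q⟫ = if p = q then (1 : ℝ) else 0 := by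
    intro p q
    rw [inner_ee]
    simp only [PiLp.single_apply, eq_comm]
  have hl : ∀ p q : Fin n, (ee p : En n) q = if p = q then (1 : ℝ) else 0 := by
    intro p q
    simp only [PiLp.single_apply, eq_comm]
  have hx : ∀ a, ⟪(ee i : En n), J a (ee j)⟫ = - wm J a i j := by
    intro a
    rw [real_inner_comm, ← wm_inner, h.qt.skew]
  simp only [hR, hd, hx, ← wm_inner, PiLp.neg_apply, PiLp.add_apply, PiLp.sub_apply,
    PiLp.smul_apply, smul_eq_mul, Fin.sum_univ_three, hl, ← wm_apply]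
  unfold H340.Om
  simp only [Fin.sum_univ_three]
  ring

end Vale.Agent.P207.H442
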