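import Vale.Agent.P207.H442.Calc

/-!
# P207 / H442: parallel functions, tensors, the Casimir operator on tensors
-/

set_option linter.unusedSectionVars false

noncomputable section

namespace Vale.Agent.P207.H442

open Finset

namespace FrCalc

variable {n : ℕ} {A : Type*} [CommRing A] [Algebra ℝ A] {C : FrCalc n A}

theorem R_self (i k l : Fin n) : C.R i i k l = 0 := by
  have h := C.R_anti i i k l
  have h2 : (2 : ℝ) • C.R i i k l = 0 := by
    rw [two_smul]
    nth_rewrite 1 [h]
    simp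
  have h3 := congrArg (fun z => (1 / 2 : ℝ) • z) h2
  simpa [smul_smul] using h3

theorem V_self (i : Fin n) (f : A) : C.V i i f = 0 := by
  have h := C.V_swap i i f
  have h2 : (2 : ℝ) • C.V i i f = 0 := by
    rw [two_smul]
    nth_rewrite 1 [h]
    simp
  have h3 := congrArg (fun z => (1 / 2 : ℝ) • z) h2
  simpa [smul_smul] using h3

variable (C) in
/-- the Ricci tensor -/
def Ric (i j : Fin n) : A := ∑ c, C.R i c c j

theorem Ric_symm (i j : Fin n) : C.Ric i j = C.Ric j i := by
  unfold Ric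
  refine Finset.sum_congr rfl fun c _ => ?_
  rw [C.R_pair i c c j, C.R_anti c j i c, C.R_skew j c i c, neg_neg]

/-- skew weights -/
theorem sum_skew_ac {B : Fin n → Fin n → A} (hB : ∀ k l, B k l = -B l k) (T : Fin n → A)
    (m : Fin n) : ∑ k, ∑ l, B k l * ac k l T m = (2 : ℝ) • ∑ c, B c m * T c := by
  simp only [ac, mul_sub, mul_ite, mul_zero, Finset.sum_sub_distrib, Finset.sum_ite_eq',
    Finset.mem_univ, if_true]
  rw [Finset.sum_comm (f := fun k l => if k = m then B k l * T l else 0)]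
  simp only [Finset.sum_ite_eq', Finset.mem_univ, if_true]
  have h1 : ∑ l, B m l * T l = -∑ l, B l m * T l := by
    rw [← Finset.sum_neg_distrib]
    refine Finset.sum_congr rfl fun l _ => ?_
    rw [hB m l]
    ring
  rw [h1, two_smul]
  ring

/-! ### parallel functions -/

variable (C) in
/-- parallel functions -/
def IsPar (φ : A) : Prop := ∀ m, C.H m φ = 0

theorem IsPar.V {φ : A} (h : C.IsPar φ) (a b : Fin n) : C.IsPar (C.V a b φ) := by
  intro m
  have h1 := VH (C := C) a b m φ
  rw [h m, map_zero] at h1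
  have h2 : ac a b (fun k => C.H k φ) m = 0 := by
    simp only [ac, h a, h b, ite_self, sub_zero]
  rw [h2, add_zero] at h1
  exact h1.symm

theorem IsPar.mul {φ ψ : A} (h : C.IsPar φ) (h' : C.IsPar ψ) : C.IsPar (φ * ψ) := by
  intro m
  rw [Derivation.leibniz, h m, h' m]
  simp

theorem IsPar.add {φ ψ : A} (h : C.IsPar φ) (h' : C.IsPar ψ) : C.IsPar (φ + ψ) := by
  intro m
  rw [map_add, h m, h' m, add_zero]

theorem IsPar.sub {φ ψ : A} (h : C.IsPar φ) (h' : C.IsPar ψ) : C.IsPar (φ - ψ) := by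
  intro m
  rw [map_sub, h m, h' m, sub_zero]

theorem IsPar.neg {φ : A} (h : C.IsPar φ) : C.IsPar (-φ) := by
  intro m
  rw [map_neg, h m, neg_zero]

theorem IsPar.smul {φ : A} (c : ℝ) (h : C.IsPar φ) : C.IsPar (c • φ) := by
  intro m
  rw [Derivation.map_smul, h m, smul_zero]

theorem IsPar.sum {κ : Type*} {s : Finset κ} {φ : κ → A} (h : ∀ k ∈ s, C.IsPar (φ k)) :
    C.IsPar (∑ k ∈ s, φ k) := by
  intro m
  rw [map_sum]
  exact Finset.sum_eq_zero fun k hk => h k hk m

theorem isPar_algebraMap (c : ℝ) : C.IsPar (algebraMap ℝ A c) := fun m => by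
  rw [Derivation.map_algebraMap]

theorem isPar_zero : C.IsPar (0 : A) := fun m => map_zero _

theorem isPar_one : C.IsPar (1 : A) := fun m => by simp

theorem Par.isPar (hP : C.Par) (i j k l : Fin n) : C.IsPar (C.R i j k l) :=
  fun m => hP m i j k l

/-- the curvature acts trivially on parallel functions -/
theorem IsPar.sum_R_V {φ : A} (h : C.IsPar φ) (i j : Fin n) :
    ∑ k, ∑ l, C.R i j k l * C.V k l φ = 0 := by
  have h1 := C.HH' i j φ
  rw [h i, h j, map_zero, map_zero, sub_zero] at h1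
  have h2 := congrArg (fun z => (2 : ℝ) • z) h1
  simp only [smul_zero, smul_smul] at h2
  norm_num at h2
  exact h2.symm

theorem IsPar.sum_R_V' {φ : A} (h : C.IsPar φ) (k l : Fin n) :
    ∑ i, ∑ j, C.R i j k l * C.V i j φ = 0 := by
  rw [← h.sum_R_V k l]
  refine Finset.sum_congr rfl fun i _ => Finset.sum_congr rfl fun j _ => ?_
  rw [C.R_pair]

/-- `∑ V_ij R_ijkl = 0` -/
theorem sum_V_R (k l : Fin n) : ∑ i, ∑ j, C.V i j (C.R i j k l) = 0 := by
  have h1 : ∀ i j, C.V i j (C.R i j k l) =
      ((if j = k then C.R i j i l else 0) - (if i = k then C.R i j j l else 0))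
      + ((if j = l then C.R i j k i else 0) - (if i = l then C.R i j k j else 0)) := by
    intro i j
    rw [C.VR]
    have e1 : ac i j (fun i' => C.R i' j k l) i = 0 := by
      simp only [ac, R_self]
      by_cases hij : j = i
      · subst hij; simp [R_self]
      · simp [hij]
    have e2 : ac i j (fun j' => C.R i j' k l) j = 0 := by
      simp only [ac, R_self]
      by_cases hij : i = j
      · subst hij; simp [R_self]
      · simp [hij]
    rw [e1, e2, zero_add, zero_add]
    rfl
  simp only [h1, Finset.sum_add_distrib, Finset.sum_sub_distrib, Finset.sum_ite_eq',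
    Finset.mem_univ, if_true]
  rw [Finset.sum_comm (f := fun i j => if i = k then C.R i j j l else 0),
    Finset.sum_comm (f := fun i j => if i = l then C.R i j k j else 0)]
  simp only [Finset.sum_ite_eq', Finset.mem_univ, if_true]
  simp only [← Finset.sum_sub_distrib, ← Finset.sum_add_distrib]
  have h2 : ∀ i, C.R i k i l - C.R k i i l + (C.R i l k i - C.R l i k i) =
      -(2 : ℝ) • C.R k i i l + (2 : ℝ) • C.R k i i l := by
    intro i
    rw [C.R_anti i k i l, C.R_pair i l k i, C.R_anti l i k i, C.R_pair i l k i, neg_smul,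
      two_smul]
    ring
  simp only [h2, neg_smul, neg_add_cancel, Finset.sum_const_zero]

theorem IsPar.curv {φ : A} (h : C.IsPar φ) : C.curv φ = 0 := by
  have h1 : ∀ i j, ∑ k, ∑ l, C.R i j k l * C.V i j (C.V k l φ) =
      -∑ k, ∑ l, C.V i j (C.R i j k l) * C.V k l φ := by
    intro i j
    have h2 := congrArg (C.V i j) (h.sum_R_V i j)
    simp only [map_sum, map_zero, Derivation.leibniz, smul_eq_mul, Finset.sum_add_distrib] at h2
    rw [eq_neg_iff_add_eq_zero, ← h2]
    congr 1
    refine Finset.sum_congr rfl fun k _ => Finset.sum_congr rfl fun l _ => ?_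
    ring
  unfold FrCalc.curv
  simp only [h1, Finset.sum_neg_distrib]
  rw [neg_eq_zero]
  have h3 : ∑ i, ∑ j, ∑ k, ∑ l, C.V i j (C.R i j k l) * C.V k l φ =
      ∑ k, ∑ l, (∑ i, ∑ j, C.V i j (C.R i j k l)) * C.V k l φ := by
    simp only [Finset.sum_mul]
    calc ∑ i, ∑ j, ∑ k, ∑ l, C.V i j (C.R i j k l) * C.V k l φ
        = ∑ i, ∑ k, ∑ j, ∑ l, C.V i j (C.R i j k l) * C.V k l φ :=
          Finset.sum_congr rfl fun i _ => Finset.sum_comm
      _ = ∑ k, ∑ i, ∑ j, ∑ l, C.V i j (C.R i j k l) * C.V k l φ := Finset.sum_comm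
      _ = ∑ k, ∑ i, ∑ l, ∑ j, C.V i j (C.R i j k l) * C.V k l φ :=
          Finset.sum_congr rfl fun k _ => Finset.sum_congr rfl fun i _ => Finset.sum_comm
      _ = _ := Finset.sum_congr rfl fun k _ => Finset.sum_comm
  rw [h3]
  exact Finset.sum_eq_zero fun k _ => Finset.sum_eq_zero fun l _ => by
    rw [sum_V_R, zero_mul]

/-- **the Casimir operator commutes with the multiplication by parallel functions** -/
theorem IsPar.cas_mul {φ : A} (h : C.IsPar φ) (f : A) : C.cas (φ * f) = φ * C.cas f := by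
  have h1 : C.lap (φ * f) = φ * C.lap f := by
    simp only [lap, Derivation.leibniz, h _, smul_eq_mul, mul_zero, add_zero, Finset.mul_sum]
  have h2 : C.curv (φ * f) = φ * C.curv f := by
    have e1 : ∀ i j k l, C.R i j k l * C.V i j (C.V k l (φ * f)) =
        φ * (C.R i j k l * C.V i j (C.V k l f)) + (C.R i j k l * C.V i j φ) * C.V k l f
        + C.V i j f * (C.R i j k l * C.V k l φ) + f * (C.R i j k l * C.V i j (C.V k l φ)) := by
      intro i j k l
      simp only [Derivation.leibniz, smul_eq_mul, map_add]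
      ring
    unfold FrCalc.curv
    simp only [e1, Finset.sum_add_distrib]
    have e2 : ∑ i, ∑ j, ∑ k, ∑ l, (C.R i j k l * C.V i j φ) * C.V k l f = 0 := by
      calc ∑ i, ∑ j, ∑ k, ∑ l, (C.R i j k l * C.V i j φ) * C.V k l f
          = ∑ i, ∑ k, ∑ j, ∑ l, (C.R i j k l * C.V i j φ) * C.V k l f :=
            Finset.sum_congr rfl fun i _ => Finset.sum_comm
        _ = ∑ k, ∑ i, ∑ j, ∑ l, (C.R i j k l * C.V i j φ) * C.V k l f := Finset.sum_comm
        _ = ∑ k, ∑ i, ∑ l, ∑ j, (C.R i j k l * C.V i j φ) * C.V k l f :=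
            Finset.sum_congr rfl fun k _ => Finset.sum_congr rfl fun i _ => Finset.sum_comm
        _ = ∑ k, ∑ l, (∑ i, ∑ j, C.R i j k l * C.V i j φ) * C.V k l f := by
            simp only [Finset.sum_mul]
            exact Finset.sum_congr rfl fun k _ => Finset.sum_comm
        _ = 0 := Finset.sum_eq_zero fun k _ => Finset.sum_eq_zero fun l _ => by
            rw [h.sum_R_V', zero_mul]
    have e3 : ∑ i, ∑ j, ∑ k, ∑ l, C.V i j f * (C.R i j k l * C.V k l φ) = 0 := by
      refine Finset.sum_eq_zero fun i _ => Finset.sum_eq_zero fun j _ => ?_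
      have h3 := congrArg (fun z => C.V i j f * z) (h.sum_R_V i j)
      simpa only [Finset.mul_sum, mul_zero] using h3
    have e4 : ∑ i, ∑ j, ∑ k, ∑ l, f * (C.R i j k l * C.V i j (C.V k l φ)) = 0 := by
      have h3 := congrArg (fun z => f * z) h.curv
      simpa only [FrCalc.curv, Finset.mul_sum, mul_zero] using h3
    rw [e2, e3, e4, add_zero, add_zero, add_zero]
    simp only [Finset.mul_sum]
  unfold cas
  rw [h1, h2, mul_sub, mul_smul_comm]

/-! ### families which transform with constant matrices -/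

section Fam

variable {κ : Type*} [Fintype κ]

variable (C) in
/-- families of functions which transform by the constant matrices `ρ a b` -/
def IsFam (ρ : Fin n → Fin n → Matrix κ κ ℝ) (f : κ → A) : Prop :=
  ∀ a b α, C.V a b (f α) = ∑ β, ρ a b α β • f β

variable {ρ : Fin n → Fin n → Matrix κ κ ℝ}

variable (C) in
/-- the zero order term of the Casimir operator on families of type `ρ` -/
def Bm (ρ : Fin n → Fin n → Matrix κ κ ℝ) (α β : κ) : A :=
  (1 / 4 : ℝ) • ∑ i, ∑ j, ∑ k, ∑ l, (ρ k l * ρ i j) α β • C.R i j k l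

theorem IsFam.VV {f : κ → A} (hf : C.IsFam ρ f) (i j k l : Fin n) (α : κ) :
    C.V i j (C.V k l (f α)) = ∑ β, (ρ k l * ρ i j) α β • f β := by
  rw [hf k l α, map_sum]
  simp only [Derivation.map_smul, hf i j, Matrix.mul_apply, Finset.sum_smul, Finset.smul_sum,
    smul_smul]
  rw [Finset.sum_comm]

/-- **the Casimir operator on families** -/
theorem IsFam.cas {f : κ → A} (hf : C.IsFam ρ f) (α : κ) :
    C.cas (f α) = C.lap (f α) - ∑ β, C.Bm ρ α β * f β := by
  unfold FrCalc.cas
  congr 1
  unfold FrCalc.curv Bm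
  simp only [hf.VV, Finset.mul_sum, Finset.smul_sum, Finset.sum_mul, smul_mul_assoc,
    mul_smul_comm, smul_smul]
  have h1 : ∀ F : Fin n → Fin n → Fin n → Fin n → κ → A,
      ∑ i, ∑ j, ∑ k, ∑ l, ∑ β, F i j k l β = ∑ β, ∑ i, ∑ j, ∑ k, ∑ l, F i j k l β := by
    intro F
    calc ∑ i, ∑ j, ∑ k, ∑ l, ∑ β, F i j k l β
        = ∑ i, ∑ j, ∑ k, ∑ β, ∑ l, F i j k l β :=
          Finset.sum_congr rfl fun i _ => Finset.sum_congr rfl fun j _ =>
            Finset.sum_congr rfl fun k _ => Finset.sum_comm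
      _ = ∑ i, ∑ j, ∑ β, ∑ k, ∑ l, F i j k l β :=
          Finset.sum_congr rfl fun i _ => Finset.sum_congr rfl fun j _ => Finset.sum_comm
      _ = ∑ i, ∑ β, ∑ j, ∑ k, ∑ l, F i j k l β :=
          Finset.sum_congr rfl fun i _ => Finset.sum_comm
      _ = _ := Finset.sum_comm
  rw [h1]

/-- the zero order term is symmetric if the matrices are skew -/
theorem Bm_symm (hρ : ∀ a b, (ρ a b).transpose = -ρ a b) (α β : κ) :
    C.Bm ρ α β = C.Bm ρ β α := by
  unfold Bm
  congr 1
  have h1 : ∀ i j k l, (ρ k l * ρ i j) α β = (ρ i j * ρ k l) β α := by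
    intro i j k l
    have h2 : (ρ k l * ρ i j).transpose = ρ i j * ρ k l := by
      rw [Matrix.transpose_mul, hρ, hρ, neg_mul_neg]
    rw [← h2, Matrix.transpose_apply]
  simp only [h1]
  calc ∑ i, ∑ j, ∑ k, ∑ l, (ρ i j * ρ k l) β α • C.R i j k l
      = ∑ i, ∑ k, ∑ j, ∑ l, (ρ i j * ρ k l) β α • C.R i j k l :=
        Finset.sum_congr rfl fun i _ => Finset.sum_comm
    _ = ∑ k, ∑ i, ∑ j, ∑ l, (ρ i j * ρ k l) β α • C.R i j k l := Finset.sum_comm
    _ = ∑ k, ∑ i, ∑ l, ∑ j, (ρ i j * ρ k l) β α • C.R i j k l :=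
        Finset.sum_congr rfl fun k _ => Finset.sum_congr rfl fun i _ => Finset.sum_comm
    _ = ∑ k, ∑ l, ∑ i, ∑ j, (ρ i j * ρ k l) β α • C.R i j k l :=
        Finset.sum_congr rfl fun k _ => Finset.sum_comm
    _ = _ := by
        refine Finset.sum_congr rfl fun k _ => Finset.sum_congr rfl fun l _ =>
          Finset.sum_congr rfl fun i _ => Finset.sum_congr rfl fun j _ => ?_
        rw [C.R_pair]

/-- the Casimir operator preserves the families of type `ρ` -/
theorem IsFam.cas_fam {f : κ → A} (hf : C.IsFam ρ f) : C.IsFam ρ (fun α => C.cas (f α)) := by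
  intro a b α
  rw [V_cas, hf a b α, cas_sum]
  exact Finset.sum_congr rfl fun β _ => cas_smul _ _

/-- the rough Laplacian preserves the families of type `ρ` -/
theorem IsFam.lap_fam {f : κ → A} (hf : C.IsFam ρ f) : C.IsFam ρ (fun α => C.lap (f α)) := by
  intro a b α
  rw [V_lap, hf a b α]
  simp only [lap, map_sum, Derivation.map_smul, Finset.smul_sum]
  rw [Finset.sum_comm]

end Fam

end FrCalc

end Vale.Agent.P207.H442
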