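import Vale.Agent.P207.H442.Int

/-!
# P207 / H442: Weitzenboeck identities for symmetric tensors of type (2,2), quaternionic case

`Om i j k l = ∑_a ω_a(i,j) ω_a(k,l)` is parallel.  For a symmetric divergence free tensor `h` of
type `(2,2)` with `cas h = -Λ h`, four integrations by parts and two pointwise positivity
statements give `Λ ≥ 4 n - 32`.
-/

set_option linter.unusedSectionVars false

noncomputable section

namespace Vale.Agent.P207.H442

open Finset

/-! ### tensors of rank three with coefficients in a commutative ring -/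

section Rank3

variable {n : ℕ} {A : Type*} [CommRing A]

/-- the inner product of two tensors of rank three -/
def ip3 (x y : Fin n → Fin n → Fin n → A) : A := ∑ i, ∑ j, ∑ k, x i j k * y i j k

/-- the operator `∑_a ω_a ⊗ ω_a` on the first two indices -/
def M12 (Om : Fin n → Fin n → Fin n → Fin n → A) (x : Fin n → Fin n → Fin n → A)
    (i j k : Fin n) : A := ∑ p, ∑ q, Om i p j q * x p q k

theorem ip3_comm (x y : Fin n → Fin n → Fin n → A) : ip3 x y = ip3 y x := by
  unfold ip3
  refine sum_congr rfl fun i _ => sum_congr rfl fun j _ => sum_congr rfl fun k _ => ?_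
  ring

theorem ip3_add_left (x y z : Fin n → Fin n → Fin n → A) :
    ip3 (fun i j k => x i j k + y i j k) z = ip3 x z + ip3 y z := by
  unfold ip3
  simp only [add_mul, sum_add_distrib]

theorem ip3_add_right (x y z : Fin n → Fin n → Fin n → A) :
    ip3 z (fun i j k => x i j k + y i j k) = ip3 z x + ip3 z y := by
  rw [ip3_comm, ip3_add_left, ip3_comm x, ip3_comm y]

theorem s213 (F : Fin n → Fin n → Fin n → A) :
    ∑ i, ∑ j, ∑ k, F i j k = ∑ i, ∑ j, ∑ k, F j i k := sum_comm

theorem s132 (F : Fin n → Fin n → Fin n → A) :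
    ∑ i, ∑ j, ∑ k, F i j k = ∑ i, ∑ j, ∑ k, F i k j := sum_congr rfl fun _ _ => sum_comm

theorem s231 (F : Fin n → Fin n → Fin n → A) :
    ∑ i, ∑ j, ∑ k, F i j k = ∑ i, ∑ j, ∑ k, F k i j := by
  rw [s213 F, s132 (fun i j k => F j i k)]

theorem s312 (F : Fin n → Fin n → Fin n → A) :
    ∑ i, ∑ j, ∑ k, F i j k = ∑ i, ∑ j, ∑ k, F j k i := by
  rw [s132 F, s213 (fun i j k => F i k j)]

theorem s231' {B : Type*} [AddCommMonoid B] (F : Fin n → Fin n → Fin n → Fin n → Fin n → B) :
    ∑ i, ∑ j, ∑ k, ∑ p, ∑ q, F i j k p q = ∑ j, ∑ k, ∑ i, ∑ p, ∑ q, F i j k p q := by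
  rw [sum_comm]
  exact sum_congr rfl fun j _ => sum_comm

variable {Om : Fin n → Fin n → Fin n → Fin n → A}

theorem M12_add (x y : Fin n → Fin n → Fin n → A) (i j k : Fin n) :
    M12 Om (fun i j k => x i j k + y i j k) i j k = M12 Om x i j k + M12 Om y i j k := by
  unfold M12
  simp only [mul_add, sum_add_distrib]

/-- exchange of two pairs of sums -/
theorem sum_pair_comm (F : Fin n → Fin n → Fin n → Fin n → A) :
    ∑ i, ∑ j, ∑ p, ∑ q, F i j p q = ∑ i, ∑ j, ∑ p, ∑ q, F p q i j := by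
  calc ∑ i, ∑ j, ∑ p, ∑ q, F i j p q = ∑ i, ∑ p, ∑ j, ∑ q, F i j p q :=
        sum_congr rfl fun i _ => sum_comm
    _ = ∑ p, ∑ i, ∑ j, ∑ q, F i j p q := sum_comm
    _ = ∑ p, ∑ i, ∑ q, ∑ j, F i j p q :=
        sum_congr rfl fun p _ => sum_congr rfl fun i _ => sum_comm
    _ = ∑ p, ∑ q, ∑ i, ∑ j, F i j p q := sum_congr rfl fun p _ => sum_comm

theorem M12_symm (hOm : ∀ i p j q, Om i p j q = Om p i q j) (x y : Fin n → Fin n → Fin n → A) :
    ip3 x (M12 Om y) = ip3 (M12 Om x) y := by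
  have e1 : ip3 x (M12 Om y) = ∑ k, ∑ i, ∑ j, x i j k * ∑ p, ∑ q, Om i p j q * y p q k :=
    s312 _
  have e2 : ip3 (M12 Om x) y = ∑ k, ∑ i, ∑ j, (∑ p, ∑ q, Om i p j q * x p q k) * y i j k :=
    s312 _
  rw [e1, e2]
  refine sum_congr rfl fun k _ => ?_
  simp only [mul_sum, sum_mul]
  rw [sum_pair_comm]
  refine sum_congr rfl fun i _ => sum_congr rfl fun j _ => sum_congr rfl fun p _ =>
    sum_congr rfl fun q _ => ?_
  rw [hOm p i q j]
  ring

theorem M12_M12 (hq : ∀ i j k l, ∑ p, ∑ q, Om i p k q * Om p j q l =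
      3 * ((if i = j then 1 else 0) * (if k = l then 1 else 0)) + 2 * Om i j k l)
    (x : Fin n → Fin n → Fin n → A) (i j k : Fin n) :
    M12 Om (M12 Om x) i j k = 3 * x i j k + 2 * M12 Om x i j k := by
  have e1 : M12 Om (M12 Om x) i j k = ∑ r, ∑ s, (∑ p, ∑ q, Om i p j q * Om p r q s) * x r s k := by
    unfold M12
    simp only [mul_sum, sum_mul]
    rw [sum_pair_comm]
    refine sum_congr rfl fun p _ => sum_congr rfl fun q _ => sum_congr rfl fun r _ =>
      sum_congr rfl fun s _ => ?_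
    ring
  rw [e1]
  simp only [hq, add_mul, sum_add_distrib]
  unfold M12
  simp only [mul_sum, mul_assoc]
  congr 1
  simp only [ite_mul, one_mul, zero_mul, mul_ite, mul_zero, sum_ite_eq, mem_univ, if_true]

/-- `|x + M x|² = 4 (|x|² + ⟨x, M x⟩)` -/
theorem ip3_Z (hOm : ∀ i p j q, Om i p j q = Om p i q j)
    (hq : ∀ i j k l, ∑ p, ∑ q, Om i p k q * Om p j q l =
      3 * ((if i = j then 1 else 0) * (if k = l then 1 else 0)) + 2 * Om i j k l)
    (x : Fin n → Fin n → Fin n → A) :
    ip3 (fun i j k => x i j k + M12 Om x i j k) (fun i j k => x i j k + M12 Om x i j k) =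
      4 * (ip3 x x + ip3 x (M12 Om x)) := by
  rw [ip3_add_left, ip3_add_right, ip3_add_right]
  have e1 : ip3 (M12 Om x) (M12 Om x) = 3 * ip3 x x + 2 * ip3 x (M12 Om x) := by
    rw [← M12_symm hOm]
    have e2 : M12 Om (M12 Om x) = fun i j k => 3 * x i j k + 2 * M12 Om x i j k := by
      funext i j k
      exact M12_M12 hq x i j k
    rw [e2]
    unfold ip3
    simp only [mul_sum, ← sum_add_distrib]
    refine sum_congr rfl fun i _ => sum_congr rfl fun j _ => sum_congr rfl fun k _ => ?_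
    ring
  rw [e1, ip3_comm (M12 Om x) x]
  ring

/-- the nine terms of `⟨y, y⟩`, `⟨y, M y⟩`, `y = 3 Sym t` -/
theorem ip3_sym (t : Fin n → Fin n → Fin n → A) (ht : ∀ i j k, t i j k = t i k j) :
    ip3 (fun i j k => t i j k + t j i k + t k i j) (fun i j k => t i j k + t j i k + t k i j) =
      3 * ip3 t t + 6 * ip3 t (fun i j k => t j i k) := by
  rw [ip3_add_left (fun i j k => t i j k + t j i k) (fun i j k => t k i j),
    ip3_add_right (fun i j k => t i j k + t j i k) (fun i j k => t k i j),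
    ip3_add_right (fun i j k => t i j k + t j i k) (fun i j k => t k i j),
    ip3_add_left, ip3_add_left, ip3_add_right, ip3_add_right, ip3_add_right]
  have a1 : ip3 (fun i j k => t j i k) (fun i j k => t j i k) = ip3 t t := by
    unfold ip3
    rw [s213]
  have a2 : ip3 (fun i j k => t k i j) (fun i j k => t k i j) = ip3 t t := by
    unfold ip3
    rw [s312]
  have a3 : ip3 (fun i j k => t j i k) (fun i j k => t i j k) = ip3 t (fun i j k => t j i k) :=
    ip3_comm _ _
  have a4 : ip3 (fun i j k => t i j k) (fun i j k => t k i j) = ip3 t (fun i j k => t j i k) := by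
    unfold ip3
    rw [s132]
    refine sum_congr rfl fun i _ => sum_congr rfl fun j _ => sum_congr rfl fun k _ => ?_
    change t i k j * t j i k = t i j k * t j i k
    rw [ht i k j]
  have a5 : ip3 (fun i j k => t j i k) (fun i j k => t k i j) = ip3 t (fun i j k => t j i k) := by
    rw [← a4]
    unfold ip3
    rw [s213]
    refine sum_congr rfl fun i _ => sum_congr rfl fun j _ => sum_congr rfl fun k _ => ?_
    change t i j k * t k j i = t i j k * t k i j
    rw [ht k j i]
  have a6 : ip3 (fun i j k => t k i j) (fun i j k => t i j k) = ip3 t (fun i j k => t j i k) := by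
    rw [ip3_comm, a4]
  have a7 : ip3 (fun i j k => t k i j) (fun i j k => t j i k) = ip3 t (fun i j k => t j i k) := by
    rw [ip3_comm, a5]
  rw [a1, a2, a3, a4, a5, a6, a7]
  ring

/-- `⟨t', M x⟩` with the first two indices exchanged -/
theorem ip3_M12_swap (hp : ∀ i j k l, Om i j k l = Om k l i j)
    (x y : Fin n → Fin n → Fin n → A) :
    ip3 (fun i j k => x j i k) (M12 Om y) = ip3 x (M12 Om (fun i j k => y j i k)) := by
  unfold ip3
  rw [s213]
  refine sum_congr rfl fun i _ => sum_congr rfl fun j _ => sum_congr rfl fun k _ => ?_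
  change x i j k * M12 Om y j i k = x i j k * M12 Om (fun i j k => y j i k) i j k
  congr 1
  unfold M12
  rw [sum_comm]
  refine sum_congr rfl fun p _ => sum_congr rfl fun q _ => ?_
  rw [hp j q i p]

theorem ip3_M_sym (t : Fin n → Fin n → Fin n → A) (ht : ∀ i j k, t i j k = t i k j)
    (hO : ∀ i p j q, Om i p j q = Om p i q j) (hp : ∀ i j k l, Om i j k l = Om k l i j)
    (hm : ∀ k i j, ∑ p, ∑ q, Om i p j q * t k p q = - t k i j) :
    ip3 (fun i j k => t i j k + t j i k + t k i j)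
      (M12 Om (fun i j k => t i j k + t j i k + t k i j)) =
      2 * ip3 t (M12 Om t) + 2 * ip3 t (M12 Om (fun i j k => t j i k)) - ip3 t t
        - 4 * ip3 t (fun i j k => t j i k) := by
  have e0 : M12 Om (fun i j k => t i j k + t j i k + t k i j) = fun i j k =>
      M12 Om t i j k + M12 Om (fun i j k => t j i k) i j k + (- t k i j) := by
    funext i j k
    rw [M12_add (fun i j k => t i j k + t j i k) (fun i j k => t k i j), M12_add]
    congr 1
    exact hm k i j
  have e1 : ∀ x y : Fin n → Fin n → Fin n → A, ip3 x (fun i j k => - y i j k) = - ip3 x y := by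
    intro x y
    unfold ip3
    simp only [mul_neg, sum_neg_distrib]
  have a2 : ip3 (fun i j k => t k i j) (fun i j k => t k i j) = ip3 t t := by
    unfold ip3
    rw [s312]
  have a4 : ip3 t (fun i j k => t k i j) = ip3 t (fun i j k => t j i k) := by
    unfold ip3
    rw [s132]
    refine sum_congr rfl fun i _ => sum_congr rfl fun j _ => sum_congr rfl fun k _ => ?_
    change t i k j * t j i k = t i j k * t j i k
    rw [ht i k j]
  have a5 : ip3 (fun i j k => t j i k) (fun i j k => t k i j) = ip3 t (fun i j k => t j i k) := by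
    rw [← a4]
    unfold ip3
    rw [s213]
    refine sum_congr rfl fun i _ => sum_congr rfl fun j _ => sum_congr rfl fun k _ => ?_
    change t i j k * t k j i = t i j k * t k i j
    rw [ht k j i]
  have m3 : M12 Om (fun i j k => t k i j) = fun i j k => - t k i j := by
    funext i j k
    exact hm k i j
  have b1 : ip3 (fun i j k => t k i j) (M12 Om t) = - ip3 t (fun i j k => t j i k) := by
    rw [M12_symm hO, m3, ip3_comm, e1, a4]
  have b2 : ip3 (fun i j k => t k i j) (M12 Om (fun i j k => t j i k)) =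
      - ip3 t (fun i j k => t j i k) := by
    rw [M12_symm hO, m3, ip3_comm, e1, a5]
  have b3 : ip3 (fun i j k => t j i k) (M12 Om t) = ip3 t (M12 Om (fun i j k => t j i k)) :=
    ip3_M12_swap hp t t
  have b4 : ip3 (fun i j k => t j i k) (M12 Om (fun i j k => t j i k)) = ip3 t (M12 Om t) :=
    ip3_M12_swap hp t (fun i j k => t j i k)
  rw [e0, ip3_add_left (fun i j k => t i j k + t j i k) (fun i j k => t k i j),
    ip3_add_right (fun i j k => M12 Om t i j k + M12 Om (fun i j k => t j i k) i j k)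
      (fun i j k => - t k i j),
    ip3_add_right (fun i j k => M12 Om t i j k + M12 Om (fun i j k => t j i k) i j k)
      (fun i j k => - t k i j), ip3_add_left, ip3_add_left, ip3_add_right, ip3_add_right,
    ip3_add_right, e1, e1, e1, a2, a5, b2, b3, b4]
  have b1' : ip3 (fun i j k => t k i j) (fun i j k => M12 Om t i j k) =
      - ip3 t (fun i j k => t j i k) := b1
  have a4' : ip3 (fun i j k => t i j k) (fun i j k => t k i j) = ip3 t (fun i j k => t j i k) := a4
  have c1 : ip3 (fun i j k => t i j k) (fun i j k => M12 Om t i j k) = ip3 t (M12 Om t) := rfl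
  have c2 : ip3 (fun i j k => t i j k) (fun i j k => M12 Om (fun i j k => t j i k) i j k) =
      ip3 t (M12 Om (fun i j k => t j i k)) := rfl
  rw [b1', a4', c1, c2]
  ring

end Rank3

/-! ### integrations by parts -/

namespace FrCalc

variable {n : ℕ} {A : Type*} [CommRing A] [Algebra ℝ A] {C : FrCalc n A} {I : A →ₗ[ℝ] ℝ}

variable (C) in
/-- the covariant derivative -/
def nab (h : Fin n → Fin n → A) (i j k : Fin n) : A := C.H i (h j k)

/-- the curvature term of the commutator `[H_i, H_p] h_qk` -/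
def cu (C : FrCalc n A) (h : Fin n → Fin n → A) (i p q k : Fin n) : A :=
  ∑ c, (C.R i p c q * h c k + C.R i p c k * h q c)

theorem comm_cu {h : Fin n → Fin n → A} (hh : C.T2 h) (i p q k : Fin n) :
    C.H i (C.H p (h q k)) = C.H p (C.H i (h q k)) + C.cu h i p q k := hh.comm i p q k

theorem IsInt.par_H_mul (hI : C.IsInt I) {φ : A} (hφ : C.IsPar φ) (i : Fin n) (f g : A) :
    I (φ * (C.H i f * g)) = -I (φ * (f * C.H i g)) := by
  have h1 := hI.H_mul i f (φ * g)
  rw [Derivation.leibniz, hφ i, smul_zero, add_zero, smul_eq_mul] at h1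
  have e1 : φ * (C.H i f * g) = C.H i f * (φ * g) := by ring
  have e2 : φ * (f * C.H i g) = f * (φ * C.H i g) := by ring
  rw [e1, e2, h1]

variable (C) in
/-- first curvature term -/
def W1 (h : Fin n → Fin n → A) : A := ∑ i, ∑ j, ∑ k, h j k * C.cu h i j i k

variable (C) in
/-- second curvature term -/
def W2 (Om : Fin n → Fin n → Fin n → Fin n → A) (h : Fin n → Fin n → A) : A :=
  ∑ i, ∑ j, ∑ k, ∑ p, ∑ q, Om i p j q * (h j k * C.cu h i p q k)

variable (C) in
/-- third curvature term -/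
def W3 (Om : Fin n → Fin n → Fin n → Fin n → A) (h : Fin n → Fin n → A) : A :=
  ∑ i, ∑ j, ∑ k, ∑ p, ∑ q, Om i j p q * (h j k * C.cu h i p q k)

/-- the square of a tensor of rank two -/
def sq2 (h : Fin n → Fin n → A) : A := ∑ j, ∑ k, h j k * h j k

theorem IsInt.N0 (hI : C.IsInt I) {h : Fin n → Fin n → A} {L : ℝ}
    (hlap : ∀ j k, C.lap (h j k) = -(L • h j k)) :
    I (ip3 (C.nab h) (C.nab h)) = L * I (sq2 h) := by
  have e1 : ip3 (C.nab h) (C.nab h) = ∑ j, ∑ k, ∑ i, C.H i (h j k) * C.H i (h j k) := by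
    unfold ip3 nab
    exact (s312 (fun j k i => C.H i (h j k) * C.H i (h j k))).symm
  have e2 : ∀ j k, I (∑ i, C.H i (h j k) * C.H i (h j k)) = L * I (h j k * h j k) := by
    intro j k
    have h1 := hI.lap (h j k) (h j k)
    rw [hlap, mul_neg, map_neg, mul_smul_comm, map_smul, smul_eq_mul] at h1
    rw [map_sum]
    linarith
  rw [e1]
  unfold sq2
  simp only [map_sum, mul_sum] at e2 ⊢
  exact sum_congr rfl fun j _ => sum_congr rfl fun k _ => e2 j k

theorem IsInt.N1 (hI : C.IsInt I) {h : Fin n → Fin n → A} (hh : C.T2 h)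
    (hdiv : ∀ k, ∑ i, C.H i (h i k) = 0) :
    I (ip3 (C.nab h) (fun i j k => C.nab h j i k)) = - I (C.W1 h) := by
  have e1 : ∀ i j k, I (C.H i (h j k) * C.H j (h i k)) =
      - I (h j k * C.H j (C.H i (h i k))) - I (h j k * C.cu h i j i k) := by
    intro i j k
    rw [hI.H_mul, comm_cu hh, mul_add, map_add]
    ring
  have e2 : ∑ i, ∑ j, ∑ k, I (h j k * C.H j (C.H i (h i k))) = 0 := by
    refine (s312 (fun j k i => I (h j k * C.H j (C.H i (h i k))))).symm.trans ?_
    refine sum_eq_zero fun j _ => sum_eq_zero fun k _ => ?_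
    rw [← map_sum, ← mul_sum, ← map_sum, hdiv, map_zero, mul_zero, map_zero]
  unfold ip3 nab W1
  simp only [map_sum, e1, sum_sub_distrib, sum_neg_distrib]
  rw [e2]
  ring

theorem IsInt.N3 (hI : C.IsInt I) {h : Fin n → Fin n → A} (hh : C.T2 h)
    {Om : Fin n → Fin n → Fin n → Fin n → A} (hpar : ∀ i j k l, C.IsPar (Om i j k l))
    (ha : ∀ i j k l, Om i j k l = - Om j i k l) :
    2 * I (ip3 (C.nab h) (M12 Om (C.nab h))) = - I (C.W2 Om h) := by
  have e1 : ∀ i j k p q, I (C.H i (h j k) * (Om i p j q * C.H p (h q k))) =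
      - I (Om i p j q * (h j k * C.H i (C.H p (h q k)))) := by
    intro i j k p q
    rw [← hI.par_H_mul (hpar i p j q)]
    congr 1
    ring
  have e2 : I (ip3 (C.nab h) (M12 Om (C.nab h))) =
      - ∑ i, ∑ j, ∑ k, ∑ p, ∑ q, I (Om i p j q * (h j k * C.H i (C.H p (h q k)))) := by
    unfold ip3 M12 nab
    simp only [mul_sum, map_sum, e1, sum_neg_distrib]
  have e3 : ∑ i, ∑ j, ∑ k, ∑ p, ∑ q, I (Om i p j q * (h j k * C.H i (C.H p (h q k)))) =
      - ∑ i, ∑ j, ∑ k, ∑ p, ∑ q, I (Om i p j q * (h j k * C.H p (C.H i (h q k)))) := by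
    refine (s231' _).trans (Eq.trans ?_ (congrArg Neg.neg (s231' _).symm))
    simp only [← sum_neg_distrib]
    refine sum_congr rfl fun j _ => sum_congr rfl fun k _ => ?_
    rw [sum_comm]
    refine sum_congr rfl fun i _ => sum_congr rfl fun p _ => sum_congr rfl fun q _ => ?_
    rw [ha p i j q, neg_mul, map_neg]
  have e4 : ∑ i, ∑ j, ∑ k, ∑ p, ∑ q, I (Om i p j q * (h j k * C.H i (C.H p (h q k)))) =
      ∑ i, ∑ j, ∑ k, ∑ p, ∑ q, I (Om i p j q * (h j k * C.H p (C.H i (h q k)))) +
      I (C.W2 Om h) := by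
    unfold W2
    simp only [map_sum, ← sum_add_distrib]
    refine sum_congr rfl fun i _ => sum_congr rfl fun j _ => sum_congr rfl fun k _ =>
      sum_congr rfl fun p _ => sum_congr rfl fun q _ => ?_
    rw [comm_cu hh i p q k, mul_add, mul_add, map_add]
  rw [e2]
  linarith

variable (C) in
/-- `∑ Ω_ijpq t_ijk t_pqk` -/
def N2 (Om : Fin n → Fin n → Fin n → Fin n → A) (h : Fin n → Fin n → A) : A :=
  ∑ i, ∑ j, ∑ k, ∑ p, ∑ q, Om i j p q * (C.H i (h j k) * C.H p (h q k))

theorem IsInt.N4 (hI : C.IsInt I) {h : Fin n → Fin n → A} (hh : C.T2 h)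
    {Om : Fin n → Fin n → Fin n → Fin n → A} (hpar : ∀ i j k l, C.IsPar (Om i j k l))
    (ha : ∀ i j k l, Om i j k l = - Om j i k l) (hp : ∀ i j k l, Om i j k l = Om k l i j) :
    I (C.N2 Om h) + I (ip3 (C.nab h) (M12 Om (fun i j k => C.nab h j i k))) =
      - I (C.W3 Om h) := by
  have e1 : I (C.N2 Om h) =
      - ∑ i, ∑ j, ∑ k, ∑ p, ∑ q, I (Om i j p q * (h j k * C.H i (C.H p (h q k)))) := by
    unfold N2
    simp only [map_sum, ← sum_neg_distrib]
    refine sum_congr rfl fun i _ => sum_congr rfl fun j _ => sum_congr rfl fun k _ =>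
      sum_congr rfl fun p _ => sum_congr rfl fun q _ => ?_
    rw [hI.par_H_mul (hpar i j p q)]
  have e2 : I (ip3 (C.nab h) (M12 Om (fun i j k => C.nab h j i k))) =
      ∑ i, ∑ j, ∑ k, ∑ p, ∑ q, I (Om i j p q * (h j k * C.H p (C.H i (h q k)))) := by
    have h1 : I (ip3 (C.nab h) (M12 Om (fun i j k => C.nab h j i k))) =
        - ∑ i, ∑ j, ∑ k, ∑ p, ∑ q, I (Om i p j q * (h j k * C.H i (C.H q (h p k)))) := by
      unfold ip3 M12 nab
      simp only [mul_sum, map_sum, ← sum_neg_distrib]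
      refine sum_congr rfl fun i _ => sum_congr rfl fun j _ => sum_congr rfl fun k _ =>
        sum_congr rfl fun p _ => sum_congr rfl fun q _ => ?_
      rw [← hI.par_H_mul (hpar i p j q)]
      congr 1
      ring
    rw [h1]
    refine (congrArg Neg.neg (s231' _)).trans (Eq.trans ?_ (s231' _).symm)
    simp only [← sum_neg_distrib]
    refine sum_congr rfl fun j _ => sum_congr rfl fun k _ => ?_
    refine Eq.trans ?_ (s213 (fun i p q => I (Om i j p q * (h j k * C.H p (C.H i (h q k)))))).symm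
    refine sum_congr rfl fun p _ => ?_
    rw [sum_comm]
    refine sum_congr rfl fun i _ => sum_congr rfl fun q _ => ?_
    rw [hp p q j i, ha j i p q, neg_mul, map_neg, neg_neg]
  have e4 : ∑ i, ∑ j, ∑ k, ∑ p, ∑ q, I (Om i j p q * (h j k * C.H i (C.H p (h q k)))) =
      ∑ i, ∑ j, ∑ k, ∑ p, ∑ q, I (Om i j p q * (h j k * C.H p (C.H i (h q k)))) +
      I (C.W3 Om h) := by
    unfold W3
    simp only [map_sum, ← sum_add_distrib]
    refine sum_congr rfl fun i _ => sum_congr rfl fun j _ => sum_congr rfl fun k _ =>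
      sum_congr rfl fun p _ => sum_congr rfl fun q _ => ?_
    rw [comm_cu hh i p q k, mul_add, mul_add, map_add]
  rw [e1, e2]
  linarith

/-- `n N_2 = ∑ (∑_ij Ω_rsij t_ijk)²` -/
theorem N2_eq {h : Fin n → Fin n → A} {Om : Fin n → Fin n → Fin n → Fin n → A}
    (hp : ∀ i j k l, Om i j k l = Om k l i j)
    (hq : ∀ i j k l, ∑ p, ∑ q, Om i j p q * Om p q k l = (n : ℝ) • Om i j k l) :
    (n : ℝ) • C.N2 Om h = ∑ k, ∑ r, ∑ s, (∑ i, ∑ j, Om r s i j * C.H i (h j k)) *
      (∑ i, ∑ j, Om r s i j * C.H i (h j k)) := by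
  have e1 : C.N2 Om h = ∑ k, ∑ i, ∑ j, ∑ p, ∑ q, Om i j p q * (C.H i (h j k) * C.H p (h q k)) := by
    unfold N2
    exact s312 (fun i j k => ∑ p, ∑ q, Om i j p q * (C.H i (h j k) * C.H p (h q k)))
  rw [e1, smul_sum]
  refine sum_congr rfl fun k _ => ?_
  have e2 : ∀ r s, (∑ i, ∑ j, Om r s i j * C.H i (h j k)) *
      (∑ i, ∑ j, Om r s i j * C.H i (h j k)) = ∑ i, ∑ j, ∑ p, ∑ q,
        (Om i j r s * Om r s p q) * (C.H i (h j k) * C.H p (h q k)) := by
    intro r s
    simp only [sum_mul, mul_sum]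
    refine sum_congr rfl fun i _ => sum_congr rfl fun j _ => sum_congr rfl fun p _ =>
      sum_congr rfl fun q _ => ?_
    rw [hp i j r s]
    ring
  simp only [e2]
  have e3 : ∀ F : Fin n → Fin n → Fin n → Fin n → Fin n → Fin n → A,
      ∑ r, ∑ s, ∑ i, ∑ j, ∑ p, ∑ q, F r s i j p q = ∑ i, ∑ j, ∑ p, ∑ q, ∑ r, ∑ s,
        F r s i j p q := by
    intro F
    rw [sum_pair_comm (fun r s i j => ∑ p, ∑ q, F r s i j p q)]
    refine sum_congr rfl fun i _ => sum_congr rfl fun j _ => ?_
    exact sum_pair_comm (fun r s p q => F r s i j p q)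
  rw [e3]
  simp only [smul_sum]
  refine sum_congr rfl fun i _ => sum_congr rfl fun j _ => sum_congr rfl fun p _ =>
      sum_congr rfl fun q _ => ?_
  rw [← smul_mul_assoc, ← hq]
  simp only [sum_mul]

/-- the hypotheses on `Ω` -/
structure QForm (C : FrCalc n A) (Om : Fin n → Fin n → Fin n → Fin n → A) : Prop where
  par : ∀ i j k l, C.IsPar (Om i j k l)
  anti : ∀ i j k l, Om i j k l = - Om j i k l
  pair : ∀ i j k l, Om i j k l = Om k l i j
  sq : ∀ i j k l, ∑ p, ∑ q, Om i p k q * Om p j q l =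
      3 * ((if i = j then 1 else 0) * (if k = l then 1 else 0)) + 2 * Om i j k l
  proj : ∀ i j k l, ∑ p, ∑ q, Om i j p q * Om p q k l = (n : ℝ) • Om i j k l

theorem N2_nonneg (_hI : C.IsInt I) (hpos : ∀ x : A, 0 ≤ I (x * x))
    {Om : Fin n → Fin n → Fin n → Fin n → A} (hO : C.QForm Om) {h : Fin n → Fin n → A} :
    0 ≤ I (C.N2 Om h) := by
  rcases Nat.eq_zero_or_pos n with h0 | h0
  · subst h0
    simp [N2]
  · have e1 := congrArg I (N2_eq (C := C) (h := h) hO.pair hO.proj)
    rw [map_smul, smul_eq_mul] at e1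
    have e2 : 0 ≤ I (∑ k, ∑ r, ∑ s, (∑ i, ∑ j, Om r s i j * C.H i (h j k)) *
        (∑ i, ∑ j, Om r s i j * C.H i (h j k))) := by
      simp only [map_sum]
      exact sum_nonneg fun i _ => sum_nonneg fun j _ => sum_nonneg fun k _ => hpos _
    rw [← e1] at e2
    have e3 : (0 : ℝ) < n := by exact_mod_cast h0
    by_contra hneg
    push Not at hneg
    have := mul_neg_of_pos_of_neg e3 hneg
    linarith

/-- **the basic identity** -/
theorem IsInt.weitz (hI : C.IsInt I) {h : Fin n → Fin n → A} (hh : C.T2 h)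
    {Om : Fin n → Fin n → Fin n → Fin n → A} (hO : C.QForm Om) (hs : ∀ i j, h i j = h j i)
    (hdiv : ∀ k, ∑ i, C.H i (h i k) = 0)
    (hm : ∀ i j, ∑ p, ∑ q, Om i p j q * h p q = - h i j) {L w1 w2 w3 : ℝ}
    (hlap : ∀ j k, C.lap (h j k) = -(L • h j k))
    (h1 : C.W1 h = w1 • sq2 h) (h2 : C.W2 Om h = w2 • sq2 h) (h3 : C.W3 Om h = w3 • sq2 h) :
    (L - w1 - w2 / 2 - w3) * I (sq2 h) = I (C.N2 Om h) + (1 / 8) *
      I (ip3 (fun i j k => (C.nab h i j k + C.nab h j i k + C.nab h k i j) +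
        M12 Om (fun i j k => C.nab h i j k + C.nab h j i k + C.nab h k i j) i j k)
        (fun i j k => (C.nab h i j k + C.nab h j i k + C.nab h k i j) +
        M12 Om (fun i j k => C.nab h i j k + C.nab h j i k + C.nab h k i j) i j k)) := by
  have ht : ∀ i j k, C.nab h i j k = C.nab h i k j := fun i j k => by
    unfold nab
    rw [hs j k]
  have hO2 : ∀ i p j q, Om i p j q = Om p i q j := by
    intro i p j q
    rw [hO.anti i p j q, hO.pair p i j q, hO.anti j q p i, hO.pair q j p i, neg_neg]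
  have hm2 : ∀ k i j, ∑ p, ∑ q, Om i p j q * C.nab h k p q = - C.nab h k i j := by
    intro k i j
    unfold nab
    rw [← map_neg, ← hm i j]
    simp only [map_sum, Derivation.leibniz, hO.par _ _ _ _ k, mul_zero, add_zero, smul_eq_mul]
  have e1 := ip3_Z hO2 hO.sq (fun i j k => C.nab h i j k + C.nab h j i k + C.nab h k i j)
  have e2 := ip3_sym (C.nab h) ht
  have e3 := ip3_M_sym (Om := Om) (C.nab h) ht hO2 hO.pair hm2
  have n0 := hI.N0 hlap
  have n1 := hI.N1 hh hdiv
  have n3 := hI.N3 hh hO.par hO.anti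
  have n4 := hI.N4 hh hO.par hO.anti hO.pair
  rw [h1, map_smul, smul_eq_mul] at n1
  rw [h2, map_smul, smul_eq_mul] at n3
  rw [h3, map_smul, smul_eq_mul] at n4
  rw [e1, e2, e3]
  have e4 : I (4 * (3 * ip3 (C.nab h) (C.nab h) + 6 * ip3 (C.nab h) (fun i j k => C.nab h j i k) +
      (2 * ip3 (C.nab h) (M12 Om (C.nab h)) + 2 * ip3 (C.nab h) (M12 Om fun i j k => C.nab h j i k)
        - ip3 (C.nab h) (C.nab h) - 4 * ip3 (C.nab h) (fun i j k => C.nab h j i k)))) =
      8 * I (ip3 (C.nab h) (C.nab h)) + 8 * I (ip3 (C.nab h) (fun i j k => C.nab h j i k)) +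
      8 * I (ip3 (C.nab h) (M12 Om (C.nab h))) +
      8 * I (ip3 (C.nab h) (M12 Om fun i j k => C.nab h j i k)) := by
    have e5 : ∀ x y z w : A, 4 * (3 * x + 6 * y + (2 * z + 2 * w - x - 4 * y)) =
        (8 : ℝ) • x + (8 : ℝ) • y + (8 : ℝ) • z + (8 : ℝ) • w := by
      intro x y z w
      simp only [Algebra.smul_def, map_ofNat]
      ring
    rw [e5]
    simp only [map_add, map_smul, smul_eq_mul]
  rw [e4]
  linarith

/-- **the lower bound of the Casimir eigenvalue** -/
theorem IsInt.weitz_le (hI : C.IsInt I) (hpos : ∀ x : A, 0 ≤ I (x * x)) {h : Fin n → Fin n → A}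
    (hh : C.T2 h) {Om : Fin n → Fin n → Fin n → Fin n → A} (hO : C.QForm Om)
    (hs : ∀ i j, h i j = h j i) (hdiv : ∀ k, ∑ i, C.H i (h i k) = 0)
    (hm : ∀ i j, ∑ p, ∑ q, Om i p j q * h p q = - h i j) {L w1 w2 w3 : ℝ}
    (hlap : ∀ j k, C.lap (h j k) = -(L • h j k))
    (h1 : C.W1 h = w1 • sq2 h) (h2 : C.W2 Om h = w2 • sq2 h) (h3 : C.W3 Om h = w3 • sq2 h) :
    0 ≤ (L - w1 - w2 / 2 - w3) * I (sq2 h) := by
  rw [hI.weitz hh hO hs hdiv hm hlap h1 h2 h3]
  have p1 : ∀ x : Fin n → Fin n → Fin n → A, 0 ≤ I (ip3 x x) := by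
    intro x
    unfold ip3
    simp only [map_sum]
    exact sum_nonneg fun i _ => sum_nonneg fun j _ => sum_nonneg fun k _ => hpos _
  have p2 : 0 ≤ I (C.N2 Om h) := N2_nonneg hI hpos hO
  have p3 := p1 (fun i j k => (C.nab h i j k + C.nab h j i k + C.nab h k i j) +
        M12 Om (fun i j k => C.nab h i j k + C.nab h j i k + C.nab h k i j) i j k)
  positivity

end FrCalc

end Vale.Agent.P207.H442
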